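import Mathlib

/-!
# The pointwise inequality for second order norms `X_i K f`
-/

noncomputable section

namespace Vale.Agent.P088.R2.H856.O

variable {α : Type*} [Fintype α]

theorem agm {U A B : ℝ} (hA : 0 ≤ A) (hB : 0 ≤ B) (h : U ^ 2 ≤ 4 * A * B) :
    U ≤ A + B ∧ -U ≤ A + B := by
  have h1 : |U| ≤ A + B := by
    apply abs_le_of_sq_le_sq _ (by positivity)
    nlinarith [sq_nonneg (A - B)]
  exact ⟨(abs_le.1 h1).2, by linarith [(abs_le.1 h1).1]⟩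

theorem two_le {a b : α} (hab : a ≠ b) (x : α → ℝ) : (x a + x b) ^ 2 ≤ 2 * ∑ i, x i ^ 2 := by
  classical
  have h1 : x a ^ 2 + x b ^ 2 ≤ ∑ i, x i ^ 2 := by
    have : ∑ i ∈ ({a, b} : Finset α), x i ^ 2 = x a ^ 2 + x b ^ 2 := Finset.sum_pair hab
    rw [← this]
    exact Finset.sum_le_sum_of_subset_of_nonneg (Finset.subset_univ _) fun i _ _ => sq_nonneg _
  nlinarith [sq_nonneg (x a - x b)]

theorem kt_pw {s s' : α → α → ℝ} {δ ω G M : ℝ} (hω : 0 ≤ ω) (hG : 0 ≤ G)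
    (hlo : ∀ ξ : α → ℝ, 1 / 2 * ∑ i, ξ i ^ 2 ≤ ∑ i, ∑ j, s i j * ξ i * ξ j)
    (hup : ∀ ξ η : α → ℝ, (∑ i, ∑ j, s i j * ξ i * η j) ^ 2 ≤ 4 * (∑ i, ξ i ^ 2) * ∑ i, η i ^ 2)
    (hd : ∀ ξ η : α → ℝ, (∑ i, ∑ j, s' i j * ξ i * η j) ^ 2 ≤
      δ ^ 2 * (∑ i, ξ i ^ 2) * ∑ i, η i ^ 2)
    {t w : α → ℝ} (ht : ∑ i, t i ^ 2 ≤ G * ω) (hw : ∑ i, w i ^ 2 ≤ M) {a b : α} (hab : a ≠ b)
    (X Y : α → ℝ) (u f p v v' : ℝ) :
    ω * ∑ i, X i ^ 2 ≤ 8 / 3 * (ω * (∑ i, ∑ j, s i j * X i * X j) +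
      u * (∑ i, ∑ j, s i j * t i * X j) - 2 * (ω * (u * ∑ i, ∑ j, s i j * w i * X j)) -
      ω * (v * u ^ 2) - (t a + t b) * (u * p) - ω * ((X a + X b) * p) +
      2 * ((w a + w b) * (ω * (u * p))) + u * (∑ i, ∑ j, s' i j * t i * Y j) +
      ω * (∑ i, ∑ j, s' i j * X i * Y j) - 2 * (ω * (u * ∑ i, ∑ j, s' i j * w i * Y j)) -
      ω * (u * (v' * f))) +
      (47 * (ω * p ^ 2) + (90 * G + 350 * (ω * M) + ω * (3 * |v| + 2)) * u ^ 2 +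
        26 * δ ^ 2 * (ω * ∑ i, Y i ^ 2) + 2 * (ω * (v' * f) ^ 2)) := by
  have hM : 0 ≤ M := (Finset.sum_nonneg fun i _ => sq_nonneg _).trans hw
  set XX := ∑ i, X i ^ 2 with hXX
  set YY := ∑ i, Y i ^ 2 with hYY
  have hX0 : 0 ≤ XX := Finset.sum_nonneg fun i _ => sq_nonneg _
  have hY0 : 0 ≤ YY := Finset.sum_nonneg fun i _ => sq_nonneg _
  have hp2 := sq_nonneg p
  have hu2 := sq_nonneg u
  have k1 := mul_le_mul_of_nonneg_left (hlo X) hω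
  -- `u s(t, X)`
  have k2 := (agm (U := u * (∑ i, ∑ j, s i j * t i * X j)) (A := 1 / 32 * (ω * XX))
    (B := 32 * (G * u ^ 2)) (by positivity) (by positivity) (by
      calc (u * (∑ i, ∑ j, s i j * t i * X j)) ^ 2 =
            u ^ 2 * (∑ i, ∑ j, s i j * t i * X j) ^ 2 := by ring
        _ ≤ u ^ 2 * (4 * (∑ i, t i ^ 2) * XX) := by
          gcongr; exact hup t X
        _ ≤ u ^ 2 * (4 * (G * ω) * XX) := by gcongr
        _ = _ := by ring)).2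
  -- `2 ω u s(w, X)`
  have k3 := (agm (U := 2 * (ω * (u * ∑ i, ∑ j, s i j * w i * X j))) (A := 1 / 32 * (ω * XX))
    (B := 128 * (ω * M * u ^ 2)) (by positivity) (by positivity) (by
      calc (2 * (ω * (u * ∑ i, ∑ j, s i j * w i * X j))) ^ 2 =
            4 * ω ^ 2 * u ^ 2 * (∑ i, ∑ j, s i j * w i * X j) ^ 2 := by ring
        _ ≤ 4 * ω ^ 2 * u ^ 2 * (4 * (∑ i, w i ^ 2) * XX) := by
          gcongr; exact hup w X
        _ ≤ 4 * ω ^ 2 * u ^ 2 * (4 * M * XX) := by gcongr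
        _ = _ := by ring)).1
  have k4 : ω * (v * u ^ 2) ≤ ω * (|v| * u ^ 2) := by
    gcongr; exact le_abs_self v
  -- `(t a + t b) u p`
  have k5 := (agm (U := (t a + t b) * (u * p)) (A := G * u ^ 2) (B := 1 / 2 * (ω * p ^ 2))
    (by positivity) (by positivity) (by
      calc ((t a + t b) * (u * p)) ^ 2 = u ^ 2 * p ^ 2 * (t a + t b) ^ 2 := by ring
        _ ≤ u ^ 2 * p ^ 2 * (2 * ∑ i, t i ^ 2) := by gcongr; exact two_le hab t
        _ ≤ u ^ 2 * p ^ 2 * (2 * (G * ω)) := by gcongr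
        _ = _ := by ring)).1
  -- `ω (X a + X b) p`
  have k6 := (agm (U := ω * ((X a + X b) * p)) (A := 1 / 32 * (ω * XX)) (B := 16 * (ω * p ^ 2))
    (by positivity) (by positivity) (by
      calc (ω * ((X a + X b) * p)) ^ 2 = ω ^ 2 * p ^ 2 * (X a + X b) ^ 2 := by ring
        _ ≤ ω ^ 2 * p ^ 2 * (2 * XX) := by gcongr; exact two_le hab X
        _ = _ := by ring)).1
  -- `2 (w a + w b) ω u p`
  have k7 := (agm (U := 2 * ((w a + w b) * (ω * (u * p)))) (A := 2 * (ω * M * u ^ 2))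
    (B := ω * p ^ 2) (by positivity) (by positivity) (by
      calc (2 * ((w a + w b) * (ω * (u * p)))) ^ 2 =
            4 * ω ^ 2 * u ^ 2 * p ^ 2 * (w a + w b) ^ 2 := by ring
        _ ≤ 4 * ω ^ 2 * u ^ 2 * p ^ 2 * (2 * ∑ i, w i ^ 2) := by gcongr; exact two_le hab w
        _ ≤ 4 * ω ^ 2 * u ^ 2 * p ^ 2 * (2 * M) := by gcongr
        _ = _ := by ring)).2
  -- `u s'(t, Y)`
  have k8 := (agm (U := u * (∑ i, ∑ j, s' i j * t i * Y j)) (A := 1 / 2 * (G * u ^ 2))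
    (B := 1 / 2 * (δ ^ 2 * (ω * YY))) (by positivity) (by positivity) (by
      calc (u * (∑ i, ∑ j, s' i j * t i * Y j)) ^ 2 =
            u ^ 2 * (∑ i, ∑ j, s' i j * t i * Y j) ^ 2 := by ring
        _ ≤ u ^ 2 * (δ ^ 2 * (∑ i, t i ^ 2) * YY) := by
          gcongr; exact hd t Y
        _ ≤ u ^ 2 * (δ ^ 2 * (G * ω) * YY) := by gcongr
        _ = _ := by ring)).2
  -- `ω s'(X, Y)`
  have k9 := (agm (U := ω * (∑ i, ∑ j, s' i j * X i * Y j)) (A := 1 / 32 * (ω * XX))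
    (B := 8 * (δ ^ 2 * (ω * YY))) (by positivity) (by positivity) (by
      calc (ω * (∑ i, ∑ j, s' i j * X i * Y j)) ^ 2 =
            ω ^ 2 * (∑ i, ∑ j, s' i j * X i * Y j) ^ 2 := by ring
        _ ≤ ω ^ 2 * (δ ^ 2 * XX * YY) := by
          gcongr; exact hd X Y
        _ = _ := by ring)).2
  -- `2 ω u s'(w, Y)`
  have k10 := (agm (U := 2 * (ω * (u * ∑ i, ∑ j, s' i j * w i * Y j))) (A := ω * M * u ^ 2)
    (B := δ ^ 2 * (ω * YY)) (by positivity) (by positivity) (by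
      calc (2 * (ω * (u * ∑ i, ∑ j, s' i j * w i * Y j))) ^ 2 =
            4 * ω ^ 2 * u ^ 2 * (∑ i, ∑ j, s' i j * w i * Y j) ^ 2 := by ring
        _ ≤ 4 * ω ^ 2 * u ^ 2 * (δ ^ 2 * (∑ i, w i ^ 2) * YY) := by
          gcongr; exact hd w Y
        _ ≤ 4 * ω ^ 2 * u ^ 2 * (δ ^ 2 * M * YY) := by gcongr
        _ = _ := by ring)).1
  -- `ω u (v' f)`
  have k11 := (agm (U := ω * (u * (v' * f))) (A := 1 / 2 * (ω * u ^ 2))
    (B := 1 / 2 * (ω * (v' * f) ^ 2)) (by positivity) (by positivity) (by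
      apply le_of_eq; ring)).1
  have z1 : 0 ≤ G * u ^ 2 := by positivity
  have z2 : 0 ≤ ω * M * u ^ 2 := by positivity
  have z3 : 0 ≤ ω * u ^ 2 := by positivity
  have z4 : 0 ≤ ω * (|v| * u ^ 2) := by positivity
  have z5 : 0 ≤ ω * p ^ 2 := by positivity
  have z6 : 0 ≤ δ ^ 2 * (ω * YY) := by positivity
  have z7 : 0 ≤ ω * (v' * f) ^ 2 := by positivity
  have e1 : (90 * G + 350 * (ω * M) + ω * (3 * |v| + 2)) * u ^ 2 =
      90 * (G * u ^ 2) + 350 * (ω * M * u ^ 2) + 3 * (ω * (|v| * u ^ 2)) + 2 * (ω * u ^ 2) := by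
    ring
  have e2 : 26 * δ ^ 2 * (ω * YY) = 26 * (δ ^ 2 * (ω * YY)) := by ring
  have e3 : ω * (1 / 2 * XX) = 1 / 2 * (ω * XX) := by ring
  rw [e1, e2]
  rw [e3] at k1
  linarith

end Vale.Agent.P088.R2.H856.O
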