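import Vale.Agent.P088.R2.H961.W.Sl
import Vale.Agent.P088.R2.H856.O.KtPw

/-!
# Second order norms `X_i K f` by `P f` and first order norms

`X_e f = ∂_e f + (∂_e W) f`, `P f = ∑ X_i (s_ij X_j f) + v f`, `K = X_{e a + e b}`.
-/

open MeasureTheory Set Filter
open scoped ContDiff Topology

noncomputable section

namespace Vale.Agent.P088.R2.H856.O

open Vale.Agent.P088.R2.H961.GW

variable {E : Type*} [NormedAddCommGroup E] [NormedSpace ℝ E] {α : Type*} [Fintype α]

/-- The directional derivative. -/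
def dd (e : E) (f : E → ℝ) (z : E) : ℝ := fderiv ℝ f z e

/-- `X_e f = ∂_e f + (∂_e W) f`. -/
def xx (W : E → ℝ) (e : E) (f : E → ℝ) (z : E) : ℝ := dd e f z + dd e W z * f z

/-- `∑ s_ij X_j f`. -/
def AA (s : α → α → E → ℝ) (e : α → E) (W f : E → ℝ) (i : α) (z : E) : ℝ :=
  ∑ j, s i j z * xx W (e j) f z

/-- `P f = ∑ X_i (s_ij X_j f) + v f`. -/
def pp (s : α → α → E → ℝ) (e : α → E) (v W f : E → ℝ) (z : E) : ℝ :=
  ∑ i, xx W (e i) (AA s e W f i) z + v z * f z

section cal

variable {U : Set E} {f g h W v : E → ℝ} {z : E}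

theorem sdd (hU : IsOpen U) (hf : Sm U f) (e : E) : Sm U (dd e f) := hf.fd hU e

theorem tdd (hU : IsOpen U) (hf : Te U f) (e : E) : Te U (dd e f) := hf.fd hU e

theorem sxx (hU : IsOpen U) (hW : Sm U W) (hf : Sm U f) (e : E) : Sm U (xx W e f) :=
  (sdd hU hf e).add ((sdd hU hW e).mul hf)

theorem txx (hU : IsOpen U) (hW : Sm U W) (hf : Te U f) (e : E) : Te U (xx W e f) :=
  (tdd hU hf e).add hU (hf.mul_left hU (sdd hU hW e))

theorem dd_congr (hU : IsOpen U) (h : ∀ z ∈ U, f z = g z) (e : E) (hz : z ∈ U) :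
    dd e f z = dd e g z := by
  have : f =ᶠ[𝓝 z] g := by
    filter_upwards [hU.mem_nhds hz] with w hw using h w hw
  simp only [dd, this.fderiv_eq]

theorem xx_congr (hU : IsOpen U) (h : ∀ z ∈ U, f z = g z) (e : E) (hz : z ∈ U) :
    xx W e f z = xx W e g z := by
  rw [xx, xx, dd_congr hU h e hz, h z hz]

theorem dd_add (hU : IsOpen U) (hf : Sm U f) (hg : Sm U g) (e : E) (hz : z ∈ U) :
    dd e (fun z => f z + g z) z = dd e f z + dd e g z := by
  simp only [dd]
  rw [fderiv_fun_add (hf.diff hU hz) (hg.diff hU hz)]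
  rfl

theorem dd_mul (hU : IsOpen U) (hf : Sm U f) (hg : Sm U g) (e : E) (hz : z ∈ U) :
    dd e (fun z => f z * g z) z = dd e f z * g z + f z * dd e g z := by
  simp only [dd]
  rw [fderiv_fun_mul (hf.diff hU hz) (hg.diff hU hz)]
  simp only [_root_.add_apply, _root_.smul_apply, smul_eq_mul]; ring

theorem dd_sum {β : Type*} (hU : IsOpen U) (S : Finset β) {f : β → E → ℝ}
    (hf : ∀ j ∈ S, Sm U (f j)) (e : E) (hz : z ∈ U) :
    dd e (fun z => ∑ j ∈ S, f j z) z = ∑ j ∈ S, dd e (f j) z := by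
  simp only [dd]
  rw [fderiv_fun_sum fun j hj => (hf j hj).diff hU hz]
  simp only [_root_.sum_apply]

theorem dd_comm (hU : IsOpen U) (hf : Sm U f) (e e' : E) (hz : z ∈ U) :
    dd e (dd e' f) z = dd e' (dd e f) z := by
  change fderiv ℝ (fun y => fderiv ℝ f y e') z e = fderiv ℝ (fun y => fderiv ℝ f y e) z e'
  have h0 : ContDiffAt ℝ ∞ f z := hf.at hU hz
  have h2 : ContDiffAt ℝ 2 f z := h0.of_le (by norm_cast)
  have hs := h2.isSymmSndFDerivAt (by simp)
  have hd : DifferentiableAt ℝ (fderiv ℝ f) z :=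
    (h0.fderiv_right (m := ∞) (by simp)).differentiableAt (by simp)
  rw [fderiv_clm_apply hd (differentiableAt_const _),
    fderiv_clm_apply hd (differentiableAt_const _)]
  simpa using hs.eq e e'

theorem xx_add (hU : IsOpen U) (hf : Sm U f) (hg : Sm U g) (e : E) (hz : z ∈ U) :
    xx W e (fun z => f z + g z) z = xx W e f z + xx W e g z := by
  rw [xx, dd_add hU hf hg e hz, xx, xx]; ring

theorem xx_mul (hU : IsOpen U) (hg : Sm U g) (hf : Sm U f) (e : E) (hz : z ∈ U) :
    xx W e (fun z => g z * f z) z = g z * xx W e f z + dd e g z * f z := by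
  rw [xx, dd_mul hU hg hf e hz, xx]; ring

theorem xx_sum {β : Type*} (hU : IsOpen U) (S : Finset β) {f : β → E → ℝ}
    (hf : ∀ j ∈ S, Sm U (f j)) (e : E) (hz : z ∈ U) :
    xx W e (fun z => ∑ j ∈ S, f j z) z = ∑ j ∈ S, xx W e (f j) z := by
  simp only [xx]
  rw [dd_sum hU S hf e hz, Finset.mul_sum, ← Finset.sum_add_distrib]

theorem xx_comm (hU : IsOpen U) (hW : Sm U W) (hf : Sm U f) (e e' : E) (hz : z ∈ U) :
    xx W e (xx W e' f) z = xx W e' (xx W e f) z := by
  have h1 := dd_comm hU hf e e' hz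
  have h2 := dd_comm hU hW e e' hz
  have k : ∀ e e' : E, dd e (xx W e' f) z =
      dd e (dd e' f) z + (dd e (dd e' W) z * f z + dd e' W z * dd e f z) := fun e e' => by
    have : xx W e' f = fun z => dd e' f z + dd e' W z * f z := rfl
    rw [this, dd_add hU (sdd hU hf e') ((sdd hU hW e').mul hf) e hz,
      dd_mul hU (sdd hU hW e') hf e hz]
  have a1 : xx W e (xx W e' f) z = dd e (xx W e' f) z + dd e W z * xx W e' f z := rfl
  have a2 : xx W e' (xx W e f) z = dd e' (xx W e f) z + dd e' W z * xx W e f z := rfl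
  rw [a1, a2, k e e', k e' e, h1, h2]
  simp only [xx]
  ring

theorem xx_dir (W f : E → ℝ) (e e' : E) (z : E) :
    xx W (e + e') f z = xx W e f z + xx W e' f z := by
  simp only [xx, dd, map_add]; ring

theorem dd_dir (f : E → ℝ) (e e' : E) (z : E) : dd (e + e') f z = dd e f z + dd e' f z := by
  simp only [dd, map_add]

variable {s : α → α → E → ℝ} {e : α → E}

theorem sAA (hU : IsOpen U) (hs : ∀ i j, Sm U (s i j)) (hW : Sm U W) (hf : Sm U f) (i : α) :
    Sm U (AA s e W f i) := Sm.sum _ fun j _ => (hs i j).mul (sxx hU hW hf (e j))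

theorem tAA (hU : IsOpen U) (hs : ∀ i j, Sm U (s i j)) (hW : Sm U W) (hf : Te U f) (i : α) :
    Te U (AA s e W f i) := Te.sum hU _ fun j _ => (txx hU hW hf (e j)).mul_left hU (hs i j)

theorem spp (hU : IsOpen U) (hs : ∀ i j, Sm U (s i j)) (hv : Sm U v) (hW : Sm U W)
    (hf : Sm U f) : Sm U (pp s e v W f) :=
  (Sm.sum _ fun i _ => sxx hU hW (sAA hU hs hW hf i) (e i)).add (hv.mul hf)

theorem tpp (hU : IsOpen U) (hs : ∀ i j, Sm U (s i j)) (hv : Sm U v) (hW : Sm U W)
    (hf : Te U f) : Te U (pp s e v W f) :=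
  (Te.sum hU _ fun i _ => txx hU hW (tAA hU hs hW hf i) (e i)).add hU (hf.mul_left hU hv)

/-- The commutator of `K` and `P`. -/
theorem K_pp (hU : IsOpen U) (hs : ∀ i j, Sm U (s i j)) (hv : Sm U v) (hW : Sm U W)
    (hf : Sm U f) (k : E) (hz : z ∈ U) :
    xx W k (pp s e v W f) z = pp s e v W (xx W k f) z +
      ∑ i, xx W (e i) (AA (fun i j => dd k (s i j)) e W f i) z + dd k v z * f z := by
  have e0 : pp s e v W f = fun z => (∑ i, xx W (e i) (AA s e W f i) z) + v z * f z := rfl
  have s1 : ∀ i, Sm U (xx W (e i) (AA s e W f i)) := fun i =>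
    sxx hU hW (sAA hU hs hW hf i) (e i)
  have s2 : Sm U fun z => ∑ i, xx W (e i) (AA s e W f i) z := Sm.sum _ fun i _ => s1 i
  have hs' : ∀ i j, Sm U ((fun i j => dd k (s i j)) i j) := fun i j => sdd hU (hs i j) k
  rw [e0, xx_add hU s2 (hv.mul hf) k hz, xx_mul hU hv hf k hz,
    xx_sum hU _ (fun i _ => s1 i) k hz, pp]
  have key : ∀ i, xx W k (xx W (e i) (AA s e W f i)) z =
      xx W (e i) (AA s e W (xx W k f) i) z +
        xx W (e i) (AA (fun i j => dd k (s i j)) e W f i) z := fun i => by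
    rw [xx_comm hU hW (sAA hU hs hW hf i) k (e i) hz,
      ← xx_add hU (sAA hU hs hW (sxx hU hW hf k) i) (sAA hU hs' hW hf i) (e i) hz]
    refine xx_congr hU (fun y hy => ?_) (e i) hz
    have e1 : AA s e W f i = fun z => ∑ j, s i j z * xx W (e j) f z := rfl
    rw [e1, xx_sum hU _ (fun j _ => (hs i j).mul (sxx hU hW hf (e j))) k hy, AA, AA,
      ← Finset.sum_add_distrib]
    refine Finset.sum_congr rfl fun j _ => ?_
    rw [xx_mul hU (hs i j) (sxx hU hW hf (e j)) k hy, xx_comm hU hW hf k (e j) hy]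
  simp only [key]
  rw [Finset.sum_add_distrib]
  ring

/-- A divergence. -/
theorem div_id (hU : IsOpen U) (hW : Sm U W) {om u A : E → ℝ} (ho : Sm U om) (hu : Sm U u)
    (hA : Sm U A) (k : E) (hz : z ∈ U) :
    dd k (fun z => om z * u z * A z) z = om z * u z * xx W k A z +
      A z * (dd k om z * u z + om z * xx W k u z - 2 * (om z * u z * dd k W z)) := by
  rw [dd_mul hU (ho.mul hu) hA k hz, dd_mul hU ho hu k hz]
  simp only [xx]
  ring

end cal

variable [MeasureSpace E] [FiniteDimensional ℝ E] [BorelSpace E]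
  [(volume : Measure E).IsAddHaarMeasure]

theorem In_dd {U : Set E} (hU : IsOpen U) {h : E → ℝ} (hh : Te U h) (k : E) :
    In U (fun _ => 1) (dd k h) = 0 := by
  have e := int_fd hU hh k
  rw [← setIntegral_eq_integral_of_forall_compl_eq_zero (s := U)] at e
  · unfold In
    rw [← e]
    refine setIntegral_congr_fun hU.measurableSet fun z _ => ?_
    simp only [one_mul]
    rfl
  · intro z hz
    exact (hh.fd hU k).off hz

/-- **(W3t)** Second order norms with one `K`, for the operator `P` in divergence form. -/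
theorem kt {U : Set E} (hU : IsOpen U) {s : α → α → E → ℝ} {e : α → E} {W v f om G M V : E → ℝ}
    {δ : ℝ} (hs : ∀ i j, Sm U (s i j)) (hW : Sm U W) (hv : Sm U v) (ho : Sm U om)
    (sG : Sm U G) (sM : Sm U M) (sV : Sm U V) (hf : Te U f)
    (om0 : ∀ z ∈ U, 0 ≤ om z) (G0 : ∀ z ∈ U, 0 ≤ G z)
    {a b : α} (hab : a ≠ b)
    (hlo : ∀ z ∈ U, ∀ ξ : α → ℝ, 1 / 2 * ∑ i, ξ i ^ 2 ≤ ∑ i, ∑ j, s i j z * ξ i * ξ j)
    (hup : ∀ z ∈ U, ∀ ξ η : α → ℝ,
      (∑ i, ∑ j, s i j z * ξ i * η j) ^ 2 ≤ 4 * (∑ i, ξ i ^ 2) * ∑ i, η i ^ 2)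
    (hd : ∀ z ∈ U, ∀ ξ η : α → ℝ, (∑ i, ∑ j, dd (e a + e b) (s i j) z * ξ i * η j) ^ 2 ≤
      δ ^ 2 * (∑ i, ξ i ^ 2) * ∑ i, η i ^ 2)
    (ht : ∀ z ∈ U, ∑ i, dd (e i) om z ^ 2 ≤ G z * om z)
    (hw : ∀ z ∈ U, ∑ i, dd (e i) W z ^ 2 ≤ M z)
    (hV : ∀ z ∈ U, |v z| ≤ V z) :
    In U (fun _ => 1) (fun z => om z * ∑ i, xx W (e i) (xx W (e a + e b) f) z ^ 2) ≤
      In U (fun _ => 1) (fun z => 47 * (om z * pp s e v W f z ^ 2) +
        (90 * G z + 350 * (om z * M z) + om z * (3 * V z + 2)) * xx W (e a + e b) f z ^ 2 +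
        26 * δ ^ 2 * (om z * ∑ i, xx W (e i) f z ^ 2) +
        2 * (om z * (dd (e a + e b) v z * f z) ^ 2)) := by
  set k := e a + e b with hk
  set u := xx W k f with hu
  have tu : Te U u := txx hU hW hf k
  have su := tu.sm
  have hs' : ∀ i j, Sm U ((fun i j => dd k (s i j)) i j) := fun i j => sdd hU (hs i j) k
  have tA : ∀ i, Te U fun z => AA s e W u i z + AA (fun i j => dd k (s i j)) e W f i z :=
    fun i => (tAA hU hs hW tu i).add hU (tAA hU hs' hW hf i)
  have tP : Te U (pp s e v W f) := tpp hU hs hv hW hf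
  have sou : Sm U fun z => om z * u z := ho.mul su
  have t1 : ∀ i, Te U fun z => om z * u z *
      (AA s e W u i z + AA (fun i j => dd k (s i j)) e W f i z) := fun i =>
    (tA i).mul_left hU sou
  have t2 : Te U fun z => om z * u z * pp s e v W f z := tP.mul_left hU sou
  have o1 : Sm U fun _ : E => (1 : ℝ) := contDiffOn_const
  have op : ∀ z ∈ U, (0 : ℝ) < (fun _ : E => (1 : ℝ)) z := fun _ _ => one_pos
  -- the divergence
  have hH : In U (fun _ => 1) (fun z => (∑ i, dd (e i) (fun z => om z * u z *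
      (AA s e W u i z + AA (fun i j => dd k (s i j)) e W f i z)) z) -
      dd k (fun z => om z * u z * pp s e v W f z) z) = 0 := by
    rw [In_sub hU o1 (Te.sum hU _ fun i _ => tdd hU (t1 i) (e i)) (tdd hU t2 k),
      In_sum hU o1 _ (fun i _ => tdd hU (t1 i) (e i)), In_dd hU t2 k,
      Finset.sum_eq_zero fun i _ => In_dd hU (t1 i) (e i), sub_zero]
  have tH : Te U (fun z => (∑ i, dd (e i) (fun z => om z * u z *
      (AA s e W u i z + AA (fun i j => dd k (s i j)) e W f i z)) z) -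
      dd k (fun z => om z * u z * pp s e v W f z) z) :=
    (Te.sum hU _ fun i _ => tdd hU (t1 i) (e i)).sub hU (tdd hU t2 k)
  have tL : Te U fun z => om z * ∑ i, xx W (e i) u z ^ 2 :=
    (Te.sum hU _ fun i _ => (txx hU hW tu (e i)).sq hU).mul_left hU ho
  have tR : Te U (fun z => 47 * (om z * pp s e v W f z ^ 2) +
        (90 * G z + 350 * (om z * M z) + om z * (3 * V z + 2)) * u z ^ 2 +
        26 * δ ^ 2 * (om z * ∑ i, xx W (e i) f z ^ 2) +
        2 * (om z * (dd k v z * f z) ^ 2)) := by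
    refine ((((((tP.sq hU).mul_left hU ho).cmul hU 47).add hU ((tu.sq hU).mul_left hU
      (((contDiffOn_const.mul sG).add (contDiffOn_const.mul (ho.mul sM))).add
        (ho.mul ((contDiffOn_const.mul sV).add contDiffOn_const))))).add hU
      (((Te.sum hU _ fun i _ => (txx hU hW hf (e i)).sq hU).mul_left hU ho).cmul hU _)).add hU
      ((((hf.mul_left hU (sdd hU hv k)).sq hU).mul_left hU ho).cmul hU 2))
  have hle : In U (fun _ => 1) (fun z => om z * ∑ i, xx W (e i) u z ^ 2) ≤
      In U (fun _ => 1) (fun z => 8 / 3 * ((∑ i, dd (e i) (fun z => om z * u z *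
      (AA s e W u i z + AA (fun i j => dd k (s i j)) e W f i z)) z) -
      dd k (fun z => om z * u z * pp s e v W f z) z) +
      (47 * (om z * pp s e v W f z ^ 2) +
        (90 * G z + 350 * (om z * M z) + om z * (3 * V z + 2)) * u z ^ 2 +
        26 * δ ^ 2 * (om z * ∑ i, xx W (e i) f z ^ 2) +
        2 * (om z * (dd k v z * f z) ^ 2))) := by
    refine In_mono hU op o1 tL ((tH.cmul hU (8 / 3)).add hU tR) fun z hz => ?_
    have key := kt_pw (s := fun i j => s i j z) (s' := fun i j => dd k (s i j) z) (δ := δ)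
      (om0 z hz) (G0 z hz) (hlo z hz) (hup z hz) (hd z hz) (ht z hz) (hw z hz) hab
      (fun i => xx W (e i) u z) (fun i => xx W (e i) f z) (u z) (f z) (pp s e v W f z) (v z)
      (dd k v z)
    have hV' : om z * (3 * |v z| + 2) * u z ^ 2 ≤ om z * (3 * V z + 2) * u z ^ 2 := by
      have := hV z hz
      have := om0 z hz
      gcongr
    -- the divergence at `z`
    have d1 : ∀ i, dd (e i) (fun z => om z * u z *
        (AA s e W u i z + AA (fun i j => dd k (s i j)) e W f i z)) z =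
        om z * u z * (xx W (e i) (AA s e W u i) z +
          xx W (e i) (AA (fun i j => dd k (s i j)) e W f i) z) +
        (AA s e W u i z + AA (fun i j => dd k (s i j)) e W f i z) *
          (dd (e i) om z * u z + om z * xx W (e i) u z - 2 * (om z * u z * dd (e i) W z)) :=
      fun i => by
        rw [div_id hU hW ho su (tA i).sm (e i) hz,
          xx_add hU (sAA hU hs hW su i) (sAA hU hs' hW hf.sm i) (e i) hz]
    have d2 := div_id hU hW ho su tP.sm k hz
    have d3 := K_pp (e := e) hU hs hv hW hf.sm k hz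
    have e1 : ∀ (S' : α → α → E → ℝ) (F : E → ℝ) (c : α → ℝ),
        ∑ i, AA S' e W F i z * c i = ∑ i, ∑ j, S' i j z * c i * xx W (e j) F z :=
      fun S' F c => Finset.sum_congr rfl fun i _ => by
        rw [AA, Finset.sum_mul]; exact Finset.sum_congr rfl fun j _ => by ring
    have d4 : (∑ i, dd (e i) (fun z => om z * u z *
        (AA s e W u i z + AA (fun i j => dd k (s i j)) e W f i z)) z) =
        om z * u z * (∑ i, xx W (e i) (AA s e W u i) z +
          ∑ i, xx W (e i) (AA (fun i j => dd k (s i j)) e W f i) z) +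
        (u z * (∑ i, AA s e W u i z * dd (e i) om z) +
          om z * (∑ i, AA s e W u i z * xx W (e i) u z) -
          2 * (om z * (u z * ∑ i, AA s e W u i z * dd (e i) W z))) +
        (u z * (∑ i, AA (fun i j => dd k (s i j)) e W f i z * dd (e i) om z) +
          om z * (∑ i, AA (fun i j => dd k (s i j)) e W f i z * xx W (e i) u z) -
          2 * (om z * (u z * ∑ i, AA (fun i j => dd k (s i j)) e W f i z * dd (e i) W z))) := by
      simp only [d1]
      simp only [Finset.mul_sum, ← Finset.sum_add_distrib, ← Finset.sum_sub_distrib]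
      exact Finset.sum_congr rfl fun i _ => by ring
    rw [e1, e1, e1, e1, e1, e1] at d4
    have d5 : dd k om z = dd (e a) om z + dd (e b) om z := dd_dir om (e a) (e b) z
    have d6 : dd k W z = dd (e a) W z + dd (e b) W z := dd_dir W (e a) (e b) z
    have d7 : xx W k u z = xx W (e a) u z + xx W (e b) u z := xx_dir W u (e a) (e b) z
    have d8 : (∑ i, dd (e i) (fun z => om z * u z *
        (AA s e W u i z + AA (fun i j => dd k (s i j)) e W f i z)) z) -
        dd k (fun z => om z * u z * pp s e v W f z) z =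
        om z * (∑ i, ∑ j, s i j z * xx W (e i) u z * xx W (e j) u z) +
      u z * (∑ i, ∑ j, s i j z * dd (e i) om z * xx W (e j) u z) -
      2 * (om z * (u z * ∑ i, ∑ j, s i j z * dd (e i) W z * xx W (e j) u z)) -
      om z * (v z * u z ^ 2) - (dd (e a) om z + dd (e b) om z) * (u z * pp s e v W f z) -
      om z * ((xx W (e a) u z + xx W (e b) u z) * pp s e v W f z) +
      2 * ((dd (e a) W z + dd (e b) W z) * (om z * (u z * pp s e v W f z))) +
      u z * (∑ i, ∑ j, dd k (s i j) z * dd (e i) om z * xx W (e j) f z) +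
      om z * (∑ i, ∑ j, dd k (s i j) z * xx W (e i) u z * xx W (e j) f z) -
      2 * (om z * (u z * ∑ i, ∑ j, dd k (s i j) z * dd (e i) W z * xx W (e j) f z)) -
      om z * (u z * (dd k v z * f z)) := by
      rw [d4, d2, d3, d5, d6, d7]
      have : pp s e v W (xx W k f) z = ∑ i, xx W (e i) (AA s e W u i) z + v z * u z := rfl
      rw [this]
      ring
    rw [d8]
    have hsplit : (90 * G z + 350 * (om z * M z) + om z * (3 * V z + 2)) * u z ^ 2 =
        (90 * G z + 350 * (om z * M z)) * u z ^ 2 + om z * (3 * V z + 2) * u z ^ 2 := by ring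
    have hsplit' : (90 * G z + 350 * (om z * M z) + om z * (3 * |v z| + 2)) * u z ^ 2 =
        (90 * G z + 350 * (om z * M z)) * u z ^ 2 + om z * (3 * |v z| + 2) * u z ^ 2 := by ring
    rw [hsplit]
    rw [hsplit'] at key
    linarith
  rw [In_add hU o1 (tH.cmul hU (8 / 3)) tR, In_cmul, hH, mul_zero, zero_add] at hle
  exact hle

end Vale.Agent.P088.R2.H856.O
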