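import Vale.Agent.P088.R2.H961.W.Op
import Vale.Agent.P088.R2.H856.O.Kt

/-!
# `kt` for two flat slots

`σ`, `τ` with `ρ = 1`, `k = 0`; `P = σ.P + τ.P`; `K_j = X_j + Y_j`.
-/

open MeasureTheory Set Filter
open scoped ContDiff Topology

noncomputable section

namespace Vale.Agent.P088.R2.H856.O

open Vale.Agent.P088.R2.H961.GW

variable {E ι κ : Type*} [NormedAddCommGroup E] [NormedSpace ℝ E] [Fintype ι] [Fintype κ]

/-- A flat slot. -/
structure Flt (σ : Sl E ι) : Prop where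
  r : ∀ z, σ.ρ z = 1
  k : ∀ i z, σ.k i z = 0

omit [Fintype ι] in
theorem Flt.D {σ : Sl E ι} (h : Flt σ) (i : ι) (f : E → ℝ) : σ.D i f = dd (σ.e i) f := by
  funext z
  rw [Sl.D, h.r, one_mul, dd]

variable {U : Set E} {θ v v₁ v₂ W f g : E → ℝ} {z : E}

/-- `P` of a flat slot in divergence form. -/
theorem P_pp {σ : Sl E ι} (h : Flt σ) (ok : σ.Ok U θ) (hW : Sm U W) (hf : Sm U f) (hz : z ∈ U) :
    σ.P v W f z = pp σ.s σ.e v W f z := by
  have hU := ok.op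
  have hD := h.D
  have sB : ∀ {g : E → ℝ}, Sm U g → ∀ i, Sm U fun z => ∑ j, σ.s i j z * σ.D j g z :=
    fun hg i => Sm.sum _ fun j _ => (ok.ss i j).mul (ok.sD hg j)
  have hA : ∀ i, AA σ.s σ.e W f i = fun z => (∑ j, σ.s i j z * σ.D j f z) +
      (∑ j, σ.s i j z * σ.D j W z) * f z := fun i => by
    funext z
    rw [AA, Finset.sum_mul, ← Finset.sum_add_distrib]
    refine Finset.sum_congr rfl fun j _ => ?_
    rw [xx, hD, hD]; ring
  have h1 : ∀ i, xx W (σ.e i) (AA σ.s σ.e W f i) z =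
      σ.D i (fun z => ∑ j, σ.s i j z * σ.D j f z) z +
        σ.D i (fun z => ∑ j, σ.s i j z * σ.D j W z) z * f z +
        (∑ j, σ.s i j z * σ.D j W z) * σ.D i f z +
        σ.D i W z * (∑ j, σ.s i j z * σ.D j f z) +
        σ.D i W z * (∑ j, σ.s i j z * σ.D j W z) * f z := fun i => by
    have hDi : ∀ g, σ.D i g = dd (σ.e i) g := fun g => hD i g
    rw [hA i, xx, dd_add hU (sB hf i) ((sB hW i).mul hf) _ hz, dd_mul hU (sB hW i) hf _ hz,
      hDi f, hDi W, hDi (fun z => ∑ j, σ.s i j z * σ.D j f z),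
      hDi (fun z => ∑ j, σ.s i j z * σ.D j W z)]
    ring
  have e1 := L_div ok hf hz
  have e2 := L_div ok hW hz
  simp only [h.k, zero_mul, add_zero] at e1 e2
  have e3 : ∀ p q : E → ℝ, σ.Γ p q z = ∑ i, (∑ j, σ.s i j z * σ.D j q z) * σ.D i p z :=
    fun p q => by
      unfold Sl.Γ
      refine Finset.sum_congr rfl fun i _ => ?_
      rw [Finset.sum_mul]
      exact Finset.sum_congr rfl fun j _ => by ring
  have e4 : σ.Γ W f z = ∑ i, (∑ j, σ.s i j z * σ.D j W z) * σ.D i f z := by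
    rw [G_comm ok W f z]; exact e3 f W
  unfold Sl.P Sl.K Sl.F pp
  have e5 : 2 * σ.Γ W f z = (∑ i, (∑ j, σ.s i j z * σ.D j W z) * σ.D i f z) +
      ∑ i, (∑ j, σ.s i j z * σ.D j f z) * σ.D i W z := by
    rw [← e4, ← e3 W f]; ring
  rw [e5, e1, e2, e3 W W]
  simp only [h1]
  rw [Finset.sum_add_distrib, Finset.sum_add_distrib, Finset.sum_add_distrib,
    Finset.sum_add_distrib, ← Finset.sum_mul]
  have e6 : ∑ i, σ.D i W z * (∑ j, σ.s i j z * σ.D j W z) * f z =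
      (∑ i, (∑ j, σ.s i j z * σ.D j W z) * σ.D i W z) * f z := by
    rw [Finset.sum_mul]
    exact Finset.sum_congr rfl fun i _ => by ring
  have e7 : ∑ i, σ.D i W z * (∑ j, σ.s i j z * σ.D j f z) =
      ∑ i, (∑ j, σ.s i j z * σ.D j f z) * σ.D i W z :=
    Finset.sum_congr rfl fun i _ => by ring
  rw [e6, e7]
  ring

/-- The block metric. -/
def blk (s : ι → ι → E → ℝ) (t : κ → κ → E → ℝ) : ι ⊕ κ → ι ⊕ κ → E → ℝ
  | Sum.inl i, Sum.inl j => s i j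
  | Sum.inr i, Sum.inr j => t i j
  | Sum.inl _, Sum.inr _ => fun _ => 0
  | Sum.inr _, Sum.inl _ => fun _ => 0

omit [NormedSpace ℝ E] [Fintype ι] [Fintype κ] in
theorem sblk [NormedSpace ℝ E] {s : ι → ι → E → ℝ} {t : κ → κ → E → ℝ}
    (hs : ∀ i j, Sm U (s i j)) (ht : ∀ i j, Sm U (t i j)) : ∀ i j, Sm U (blk s t i j)
  | Sum.inl i, Sum.inl j => hs i j
  | Sum.inr i, Sum.inr j => ht i j
  | Sum.inl _, Sum.inr _ => contDiffOn_const
  | Sum.inr _, Sum.inl _ => contDiffOn_const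

theorem pp_blk {σ : Sl E ι} {τ : Sl E κ} (h : Flt σ) (h' : Flt τ) (ok : σ.Ok U θ)
    (ot : τ.Ok U θ) (hW : Sm U W) (hf : Sm U f) (hz : z ∈ U) :
    pp (blk σ.s τ.s) (Sum.elim σ.e τ.e) (fun z => v₁ z + v₂ z) W f z =
      σ.P v₁ W f z + τ.P v₂ W f z := by
  have a1 : ∀ i, AA (blk σ.s τ.s) (Sum.elim σ.e τ.e) W f (Sum.inl i) = AA σ.s σ.e W f i :=
    fun i => by
      funext y
      rw [AA, Fintype.sum_sum_type, AA]
      simp [blk]
  have a2 : ∀ i, AA (blk σ.s τ.s) (Sum.elim σ.e τ.e) W f (Sum.inr i) = AA τ.s τ.e W f i :=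
    fun i => by
      funext y
      rw [AA, Fintype.sum_sum_type, AA]
      simp [blk]
  rw [P_pp h ok hW hf hz, P_pp h' ot hW hf hz, pp, Fintype.sum_sum_type, pp, pp]
  simp only [a1, a2, Sum.elim_inl, Sum.elim_inr]
  ring

theorem cs2 {x y a b c d k : ℝ} (ha : 0 ≤ a) (hb : 0 ≤ b) (hc : 0 ≤ c) (hd : 0 ≤ d)
    (hk : 0 ≤ k) (hx : x ^ 2 ≤ k * a * b) (hy : y ^ 2 ≤ k * c * d) :
    (x + y) ^ 2 ≤ k * (a + c) * (b + d) := by
  have h1 : (2 * (x * y)) ^ 2 ≤ (k * (a * d + c * b)) ^ 2 := by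
    have h2 : x ^ 2 * y ^ 2 ≤ (k * a * b) * (k * c * d) :=
      mul_le_mul hx hy (sq_nonneg _) (by positivity)
    nlinarith [mul_nonneg (mul_nonneg hk hk) (sq_nonneg (a * d - c * b))]
  have h3 : |2 * (x * y)| ≤ k * (a * d + c * b) :=
    abs_le_of_sq_le_sq h1 (by positivity)
  have h4 := (abs_le.1 h3).2
  nlinarith

theorem blk_sum (s : ι → ι → ℝ) (t : κ → κ → ℝ) (ξ η : ι ⊕ κ → ℝ) (B : ι ⊕ κ → ι ⊕ κ → ℝ)
    (h1 : ∀ i j, B (Sum.inl i) (Sum.inl j) = s i j) (h2 : ∀ i j, B (Sum.inr i) (Sum.inr j) = t i j)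
    (h3 : ∀ i j, B (Sum.inl i) (Sum.inr j) = 0) (h4 : ∀ i j, B (Sum.inr i) (Sum.inl j) = 0) :
    ∑ i, ∑ j, B i j * ξ i * η j =
      (∑ i, ∑ j, s i j * ξ (Sum.inl i) * η (Sum.inl j)) +
        ∑ i, ∑ j, t i j * ξ (Sum.inr i) * η (Sum.inr j) := by
  simp only [Fintype.sum_sum_type, h1, h2, h3, h4, zero_mul, Finset.sum_const_zero, add_zero,
    zero_add]

variable [MeasureSpace E] [FiniteDimensional ℝ E] [BorelSpace E]
  [(volume : Measure E).IsAddHaarMeasure]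

/-- `X_i f` of a slot. -/
def sX (σ : Sl E ι) (W : E → ℝ) (i : ι) (f : E → ℝ) (z : E) : ℝ := xx W (σ.e i) f z

/-- `K_j f = X_j f + Y_j f`. -/
def sK (σ τ : Sl E ι) (W : E → ℝ) (j : ι) (f : E → ℝ) (z : E) : ℝ := xx W (σ.e j + τ.e j) f z

/-- **(W3t)** for two flat slots. -/
theorem kt2 {σ τ : Sl E ι} (h : Flt σ) (h' : Flt τ) (ok : σ.Ok U θ) (ot : τ.Ok U θ)
    {om G M V : E → ℝ} {δ : ℝ} (hW : Sm U W) (hv₁ : Sm U v₁) (hv₂ : Sm U v₂) (ho : Sm U om)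
    (sG : Sm U G) (sM : Sm U M) (sV : Sm U V) (hf : Te U f)
    (om0 : ∀ z ∈ U, 0 ≤ om z) (G0 : ∀ z ∈ U, 0 ≤ G z) (j : ι)
    (hlo : ∀ z ∈ U, ∀ ξ : ι → ℝ, 1 / 2 * ∑ i, ξ i ^ 2 ≤ ∑ i, ∑ j, σ.s i j z * ξ i * ξ j)
    (hlo' : ∀ z ∈ U, ∀ ξ : ι → ℝ, 1 / 2 * ∑ i, ξ i ^ 2 ≤ ∑ i, ∑ j, τ.s i j z * ξ i * ξ j)
    (hup : ∀ z ∈ U, ∀ ξ η : ι → ℝ,
      (∑ i, ∑ j, σ.s i j z * ξ i * η j) ^ 2 ≤ 4 * (∑ i, ξ i ^ 2) * ∑ i, η i ^ 2)
    (hup' : ∀ z ∈ U, ∀ ξ η : ι → ℝ,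
      (∑ i, ∑ j, τ.s i j z * ξ i * η j) ^ 2 ≤ 4 * (∑ i, ξ i ^ 2) * ∑ i, η i ^ 2)
    (hd : ∀ z ∈ U, ∀ ξ η : ι → ℝ, (∑ i, ∑ l, dd (σ.e j + τ.e j) (σ.s i l) z * ξ i * η l) ^ 2 ≤
      δ ^ 2 * (∑ i, ξ i ^ 2) * ∑ i, η i ^ 2)
    (hd' : ∀ z ∈ U, ∀ ξ η : ι → ℝ, (∑ i, ∑ l, dd (σ.e j + τ.e j) (τ.s i l) z * ξ i * η l) ^ 2 ≤
      δ ^ 2 * (∑ i, ξ i ^ 2) * ∑ i, η i ^ 2)
    (ht : ∀ z ∈ U, ∑ i, (dd (σ.e i) om z ^ 2 + dd (τ.e i) om z ^ 2) ≤ G z * om z)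
    (hw : ∀ z ∈ U, ∑ i, (dd (σ.e i) W z ^ 2 + dd (τ.e i) W z ^ 2) ≤ M z)
    (hV : ∀ z ∈ U, |v₁ z + v₂ z| ≤ V z) :
    In U (fun _ => 1) (fun z => om z *
        ∑ i, (sX σ W i (sK σ τ W j f) z ^ 2 + sX τ W i (sK σ τ W j f) z ^ 2)) ≤
      In U (fun _ => 1) (fun z => 47 * (om z * (σ.P v₁ W f z + τ.P v₂ W f z) ^ 2) +
        (90 * G z + 350 * (om z * M z) + om z * (3 * V z + 2)) * sK σ τ W j f z ^ 2 +
        26 * δ ^ 2 * (om z * ∑ i, (sX σ W i f z ^ 2 + sX τ W i f z ^ 2)) +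
        2 * (om z * (dd (σ.e j + τ.e j) (fun z => v₁ z + v₂ z) z * f z) ^ 2)) := by
  have hU := ok.op
  have key := kt (s := blk σ.s τ.s) (e := Sum.elim σ.e τ.e) (δ := δ) (V := V) hU
    (sblk ok.ss ot.ss) hW (hv₁.add hv₂) ho sG sM sV hf om0 G0
    (a := Sum.inl j) (b := Sum.inr j) (by simp)
    (fun z hz ξ => by
      have a1 := hlo z hz fun i => ξ (Sum.inl i)
      have a2 := hlo' z hz fun i => ξ (Sum.inr i)
      rw [blk_sum (fun i j => σ.s i j z) (fun i j => τ.s i j z) ξ ξ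
        (fun i j => blk σ.s τ.s i j z) (fun _ _ => rfl) (fun _ _ => rfl) (fun _ _ => rfl)
        (fun _ _ => rfl), Fintype.sum_sum_type]
      linarith)
    (fun z hz ξ η => by
      have a1 := hup z hz (fun i => ξ (Sum.inl i)) fun i => η (Sum.inl i)
      have a2 := hup' z hz (fun i => ξ (Sum.inr i)) fun i => η (Sum.inr i)
      rw [blk_sum (fun i j => σ.s i j z) (fun i j => τ.s i j z) ξ η
        (fun i j => blk σ.s τ.s i j z) (fun _ _ => rfl) (fun _ _ => rfl) (fun _ _ => rfl)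
        (fun _ _ => rfl), Fintype.sum_sum_type, Fintype.sum_sum_type]
      exact cs2 (Finset.sum_nonneg fun _ _ => sq_nonneg _) (Finset.sum_nonneg fun _ _ =>
        sq_nonneg _) (Finset.sum_nonneg fun _ _ => sq_nonneg _) (Finset.sum_nonneg fun _ _ =>
        sq_nonneg _) (by norm_num) a1 a2)
    (fun z hz ξ η => by
      have a1 := hd z hz (fun i => ξ (Sum.inl i)) fun i => η (Sum.inl i)
      have a2 := hd' z hz (fun i => ξ (Sum.inr i)) fun i => η (Sum.inr i)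
      have c0 : ∀ k : E, dd k (fun _ : E => (0 : ℝ)) z = 0 := fun k => by simp [dd]
      rw [blk_sum (fun i l => dd (σ.e j + τ.e j) (σ.s i l) z)
        (fun i l => dd (σ.e j + τ.e j) (τ.s i l) z) ξ η
        (fun i l => dd (Sum.elim σ.e τ.e (Sum.inl j) + Sum.elim σ.e τ.e (Sum.inr j))
          (blk σ.s τ.s i l) z) (fun _ _ => rfl) (fun _ _ => rfl) (fun _ _ => c0 _)
        (fun _ _ => c0 _), Fintype.sum_sum_type, Fintype.sum_sum_type]
      exact cs2 (Finset.sum_nonneg fun _ _ => sq_nonneg _) (Finset.sum_nonneg fun _ _ =>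
        sq_nonneg _) (Finset.sum_nonneg fun _ _ => sq_nonneg _) (Finset.sum_nonneg fun _ _ =>
        sq_nonneg _) (sq_nonneg δ) a1 a2)
    (fun z hz => by
      rw [Fintype.sum_sum_type]
      have := ht z hz
      rwa [Finset.sum_add_distrib] at this)
    (fun z hz => by
      rw [Fintype.sum_sum_type]
      have := hw z hz
      rwa [Finset.sum_add_distrib] at this)
    hV
  have e1 : ∀ F : E → ℝ, ∀ z, ∑ i, xx W (Sum.elim σ.e τ.e i) F z ^ 2 =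
      ∑ i, (sX σ W i F z ^ 2 + sX τ W i F z ^ 2) := fun F z => by
    rw [Fintype.sum_sum_type, Finset.sum_add_distrib]; rfl
  simp only [e1] at key
  refine key.trans (le_of_eq ?_)
  refine In_congr hU fun z hz => ?_
  rw [pp_blk h h' ok ot hW hf.sm hz]
  rfl

/-- The difference of the operators of two weights. -/
theorem xx_model {U : Set E} (hU : IsOpen U) {W W' f : E → ℝ} (hW : Sm U W) (hW' : Sm U W')
    (hf : Sm U f) (e k : E) {z : E} (hz : z ∈ U) :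
    xx W' e (xx W' k f) z = xx W e (xx W k f) z + dd k (fun z => W' z - W z) z * xx W e f z +
      dd e (dd k fun z => W' z - W z) z * f z + dd e (fun z => W' z - W z) z * xx W k f z +
      dd e (fun z => W' z - W z) z * dd k (fun z => W' z - W z) z * f z := by
  have so : Sm U fun z => W' z - W z := hW'.sub hW
  have e0 : ∀ k : E, ∀ y ∈ U, dd k W' y = dd k W y + dd k (fun z => W' z - W z) y :=
    fun k y hy => by
      rw [← dd_add hU hW so k hy]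
      exact dd_congr hU (fun w _ => by ring) k hy
  have e1 : ∀ y ∈ U, xx W' k f y = xx W k f y + dd k (fun z => W' z - W z) y * f y :=
    fun y hy => by
      rw [xx, xx, e0 k y hy]; ring
  have e2 : ∀ F : E → ℝ, xx W' e F z = xx W e F z + dd e (fun z => W' z - W z) z * F z :=
    fun F => by rw [xx, xx, e0 e z hz]; ring
  rw [e2, xx_congr hU e1 e hz, xx_add hU (sxx hU hW hf k) ((sdd hU so k).mul hf) e hz,
    xx_mul hU (sdd hU so k) hf e hz, e1 z hz]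
  ring

end Vale.Agent.P088.R2.H856.O
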