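import Vale.Agent.P088.R2.H516.O.En
import Vale.Agent.P088.R2.H676.F.Df
import Vale.Agent.P088.R2.H856.O.KtI

/-!
# The fifth cost: `∫ d |D K (χ f)|²` by the square, the margin and raw energies

Two flat slots; `K_j f = Y₁_j f + Y₂_j f`, `DK_ij f = (Y₁_i - Y₂_i) K_j f`.
-/

open MeasureTheory Set Filter
open scoped ContDiff Topology

noncomputable section

namespace Vale.Agent.P088.R2.H856.O

open Vale.Agent.P088.R2.H961.GW Vale.Agent.P088.R2.H960.W Vale.Agent.P088.R2.H551.E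
open Vale.Agent.P088.R2.H516.O (Sp)
open Vale.Agent.P088.R2.H86.Z (El)
open Vale.Agent.P088.R2.H676.F (Kj DKij K2 Y2 DK2)

variable {E ι : Type*} [NormedAddCommGroup E] [NormedSpace ℝ E]

/-- `D¹_j χ + D²_j χ`. -/
def gK (σ τ : Sl E ι) (χ : E → ℝ) (j : ι) (z : E) : ℝ := σ.D j χ z + τ.D j χ z

variable [Fintype ι]

/-- `|D χ|²` (both slots). -/
def nD (σ τ : Sl E ι) (χ : E → ℝ) (z : E) : ℝ := (∑ i, σ.D i χ z ^ 2) + ∑ i, τ.D i χ z ^ 2

/-- `∑ |(D¹_j + D²_j) χ|²`. -/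
def nK (σ τ : Sl E ι) (χ : E → ℝ) (z : E) : ℝ := ∑ j, gK σ τ χ j z ^ 2

/-- `∑ |(D¹_i - D²_i) (D¹_j + D²_j) χ|²`. -/
def nDK (σ τ : Sl E ι) (χ : E → ℝ) (z : E) : ℝ :=
  ∑ i, ∑ j, (σ.D i (gK σ τ χ j) z - τ.D i (gK σ τ χ j) z) ^ 2

variable {σ τ : Sl E ι} {U Ω : Set E} {θ W f g χ v v₁ v₂ d hi wc M V Gd : E → ℝ} {z : E}

theorem nD_nn (σ τ : Sl E ι) (χ : E → ℝ) (z : E) : 0 ≤ nD σ τ χ z :=
  add_nonneg (Finset.sum_nonneg fun _ _ => sq_nonneg _) (Finset.sum_nonneg fun _ _ => sq_nonneg _)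

theorem nK_nn (σ τ : Sl E ι) (χ : E → ℝ) (z : E) : 0 ≤ nK σ τ χ z :=
  Finset.sum_nonneg fun _ _ => sq_nonneg _

theorem K2_nn (σ τ : Sl E ι) (W f : E → ℝ) (z : E) : 0 ≤ K2 σ τ W f z :=
  Finset.sum_nonneg fun _ _ => sq_nonneg _

theorem Y2_nn (σ τ : Sl E ι) (W f : E → ℝ) (z : E) : 0 ≤ Y2 σ τ W f z :=
  add_nonneg (Finset.sum_nonneg fun _ _ => sq_nonneg _) (Finset.sum_nonneg fun _ _ => sq_nonneg _)

/-! ## Smoothness -/

section sm

variable (ok : σ.Ok U θ) (ot : τ.Ok U θ)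
include ok ot

theorem sKj (hW : Sm U W) (hf : Sm U f) (j : ι) : Sm U (Kj σ τ W f j) :=
  (sY ok hW hf j).add (sY ot hW hf j)

theorem tKj (hW : Sm U W) (hf : Te U f) (j : ι) : Te U (Kj σ τ W f j) :=
  (tY ok hW hf j).add ok.op (tY ot hW hf j)

theorem tDKij (hW : Sm U W) (hf : Te U f) (i j : ι) : Te U (DKij σ τ W f i j) :=
  (tY ok hW (tKj ok ot hW hf j) i).sub ok.op (tY ot hW (tKj ok ot hW hf j) i)

theorem tDK2 (hW : Sm U W) (hf : Te U f) : Te U (DK2 σ τ W f) :=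
  Te.sum ok.op _ fun i _ => Te.sum ok.op _ fun j _ => (tDKij ok ot hW hf i j).sq ok.op

theorem tK2 (hW : Sm U W) (hf : Te U f) : Te U (K2 σ τ W f) :=
  Te.sum ok.op _ fun j _ => (tKj ok ot hW hf j).sq ok.op

theorem tY2 (hW : Sm U W) (hf : Te U f) : Te U (Y2 σ τ W f) :=
  (Te.sum ok.op _ fun i _ => (tY ok hW hf i).sq ok.op).add ok.op
    (Te.sum ok.op _ fun i _ => (tY ot hW hf i).sq ok.op)

theorem sgK (hχ : Sm U χ) (j : ι) : Sm U (gK σ τ χ j) := (ok.sD hχ j).add (ot.sD hχ j)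

theorem snD (hχ : Sm U χ) : Sm U (nD σ τ χ) :=
  (Sm.sum _ fun i _ => (ok.sD hχ i).pow 2).add (Sm.sum _ fun i _ => (ot.sD hχ i).pow 2)

theorem snK (hχ : Sm U χ) : Sm U (nK σ τ χ) := Sm.sum _ fun j _ => (sgK ok ot hχ j).pow 2

theorem snDK (hχ : Sm U χ) : Sm U (nDK σ τ χ) :=
  Sm.sum _ fun i _ => Sm.sum _ fun j _ =>
    ((ok.sD (sgK ok ot hχ j) i).sub (ot.sD (sgK ok ot hχ j) i)).pow 2

end sm

/-! ## Products -/

omit [Fintype ι] in
theorem YY_congr (hU : IsOpen U) (σ : Sl E ι) (W : E → ℝ) (h : ∀ z ∈ U, f z = g z) (i : ι)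
    (hz : z ∈ U) : YY σ W f i z = YY σ W g i z := by
  rw [YY, YY, D_congr σ hU h i hz, h z hz]

omit [Fintype ι] in
theorem YY_add (hU : IsOpen U) (σ : Sl E ι) (W : E → ℝ) (hf : Sm U f) (hg : Sm U g) (i : ι)
    (hz : z ∈ U) : YY σ W (fun z => f z + g z) i z = YY σ W f i z + YY σ W g i z := by
  rw [YY, YY, YY, D_add σ hU hf hg i hz]; ring

omit [Fintype ι] in
theorem YY_mul' (hU : IsOpen U) (σ : Sl E ι) (W : E → ℝ) (hχ : Sm U χ) (hf : Sm U f) (i : ι)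
    (hz : z ∈ U) : YY σ W (fun z => χ z * f z) i z = χ z * YY σ W f i z + σ.D i χ z * f z := by
  rw [YY, YY, D_mul σ hU hχ hf i hz]; ring

omit [Fintype ι] in
theorem Kj_mul (hU : IsOpen U) (σ τ : Sl E ι) (W : E → ℝ) (hχ : Sm U χ) (hf : Sm U f) (j : ι)
    (hz : z ∈ U) :
    Kj σ τ W (fun z => χ z * f z) j z = χ z * Kj σ τ W f j z + gK σ τ χ j z * f z := by
  rw [Kj, Kj, gK, YY_mul' hU σ W hχ hf j hz, YY_mul' hU τ W hχ hf j hz]; ring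

theorem DKij_mul (ok : σ.Ok U θ) (ot : τ.Ok U θ) (hW : Sm U W) (hχ : Sm U χ) (hf : Sm U f)
    (i j : ι) (hz : z ∈ U) :
    DKij σ τ W (fun z => χ z * f z) i j z = χ z * DKij σ τ W f i j z +
      (σ.D i χ z - τ.D i χ z) * Kj σ τ W f j z +
      gK σ τ χ j z * (YY σ W f i z - YY τ W f i z) +
      (σ.D i (gK σ τ χ j) z - τ.D i (gK σ τ χ j) z) * f z := by
  have hU := ok.op
  have h1 : ∀ y ∈ U, Kj σ τ W (fun z => χ z * f z) j y =
      χ y * Kj σ τ W f j y + gK σ τ χ j y * f y := fun y hy => Kj_mul hU σ τ W hχ hf j hy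
  have sK := sKj ok ot hW hf j
  have sg := sgK ok ot hχ j
  have h2 : ∀ ρ : Sl E ι, YY ρ W (Kj σ τ W (fun z => χ z * f z) j) i z =
      χ z * YY ρ W (Kj σ τ W f j) i z + ρ.D i χ z * Kj σ τ W f j z +
        (gK σ τ χ j z * YY ρ W f i z + ρ.D i (gK σ τ χ j) z * f z) := fun ρ => by
    rw [YY_congr hU ρ W h1 i hz, YY_add hU ρ W (hχ.mul sK) (sg.mul hf) i hz,
      YY_mul' hU ρ W hχ sK i hz, YY_mul' hU ρ W sg hf i hz]
  rw [DKij, DKij, h2 σ, h2 τ]; ring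

/-! ## Pointwise inequalities -/

theorem sq4 (a b c d : ℝ) : (a + b + c + d) ^ 2 ≤ 4 * (a ^ 2 + b ^ 2 + c ^ 2 + d ^ 2) := by
  nlinarith [sq_nonneg (a - b), sq_nonneg (a - c), sq_nonneg (a - d), sq_nonneg (b - c),
    sq_nonneg (b - d), sq_nonneg (c - d)]

theorem sum_id (c F : ℝ) (D r : ι → ι → ℝ) (p q k g : ι → ℝ) :
    ∑ i, ∑ j, 4 * (c * D i j + (2 * p i) * k j + (2 * q i) * g j + r i j * F) =
      4 * (c * ∑ i, ∑ j, D i j) + 8 * ((∑ i, p i) * ∑ j, k j) + 8 * ((∑ j, g j) * ∑ i, q i) +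
        4 * ((∑ i, ∑ j, r i j) * F) := by
  have e1 : ∀ A B : ι → ℝ, ∑ i, ∑ j, (2 * A i) * B j = 2 * ((∑ i, A i) * ∑ j, B j) :=
    fun A B => by
      rw [Finset.sum_mul_sum, Finset.mul_sum]
      refine Finset.sum_congr rfl fun i _ => ?_
      rw [Finset.mul_sum]
      exact Finset.sum_congr rfl fun j _ => by ring
  have e2 : ∑ i, ∑ j, 4 * (c * D i j + (2 * p i) * k j + (2 * q i) * g j + r i j * F) =
      4 * (c * (∑ i, ∑ j, D i j) + (∑ i, ∑ j, (2 * p i) * k j) + (∑ i, ∑ j, (2 * q i) * g j) +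
        (∑ i, ∑ j, r i j) * F) := by
    simp only [Finset.mul_sum, Finset.sum_mul, ← Finset.sum_add_distrib]
  rw [e2, e1, e1]; ring

theorem DK2_mul (ok : σ.Ok U θ) (ot : τ.Ok U θ) (hW : Sm U W) (hχ : Sm U χ) (hf : Sm U f)
    (hz : z ∈ U) :
    DK2 σ τ W (fun z => χ z * f z) z ≤ 4 * (χ z ^ 2 * DK2 σ τ W f z) +
      8 * (nD σ τ χ z * K2 σ τ W f z) + 8 * (nK σ τ χ z * Y2 σ τ W f z) +
      4 * (nDK σ τ χ z * f z ^ 2) := by
  have h1 : ∀ i j, DKij σ τ W (fun z => χ z * f z) i j z ^ 2 ≤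
      4 * (χ z ^ 2 * DKij σ τ W f i j z ^ 2 +
        (2 * (σ.D i χ z ^ 2 + τ.D i χ z ^ 2)) * Kj σ τ W f j z ^ 2 +
        (2 * (YY σ W f i z ^ 2 + YY τ W f i z ^ 2)) * gK σ τ χ j z ^ 2 +
        (σ.D i (gK σ τ χ j) z - τ.D i (gK σ τ χ j) z) ^ 2 * f z ^ 2) := fun i j => by
    rw [DKij_mul ok ot hW hχ hf i j hz]
    refine (sq4 _ _ _ _).trans ?_
    have a1 : ((σ.D i χ z - τ.D i χ z) * Kj σ τ W f j z) ^ 2 ≤
        (2 * (σ.D i χ z ^ 2 + τ.D i χ z ^ 2)) * Kj σ τ W f j z ^ 2 := by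
      rw [mul_pow]
      exact mul_le_mul_of_nonneg_right (by nlinarith [sq_nonneg (σ.D i χ z + τ.D i χ z)])
        (sq_nonneg _)
    have a2 : (gK σ τ χ j z * (YY σ W f i z - YY τ W f i z)) ^ 2 ≤
        (2 * (YY σ W f i z ^ 2 + YY τ W f i z ^ 2)) * gK σ τ χ j z ^ 2 := by
      rw [mul_pow, mul_comm]
      exact mul_le_mul_of_nonneg_right (by nlinarith [sq_nonneg (YY σ W f i z + YY τ W f i z)])
        (sq_nonneg _)
    rw [mul_pow, mul_pow (_ - _) (f z)]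
    rw [mul_pow] at a1 a2
    rw [mul_pow, mul_pow]
    linarith
  have h2 : DK2 σ τ W (fun z => χ z * f z) z ≤ ∑ i, ∑ j,
      4 * (χ z ^ 2 * DKij σ τ W f i j z ^ 2 +
        (2 * (σ.D i χ z ^ 2 + τ.D i χ z ^ 2)) * Kj σ τ W f j z ^ 2 +
        (2 * (YY σ W f i z ^ 2 + YY τ W f i z ^ 2)) * gK σ τ χ j z ^ 2 +
        (σ.D i (gK σ τ χ j) z - τ.D i (gK σ τ χ j) z) ^ 2 * f z ^ 2) :=
    Finset.sum_le_sum fun i _ => Finset.sum_le_sum fun j _ => h1 i j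
  rw [sum_id (χ z ^ 2) (f z ^ 2) (fun i j => DKij σ τ W f i j z ^ 2)
    (fun i j => (σ.D i (gK σ τ χ j) z - τ.D i (gK σ τ χ j) z) ^ 2)
    (fun i => σ.D i χ z ^ 2 + τ.D i χ z ^ 2) (fun i => YY σ W f i z ^ 2 + YY τ W f i z ^ 2)
    (fun j => Kj σ τ W f j z ^ 2) fun j => gK σ τ χ j z ^ 2] at h2
  rwa [Finset.sum_add_distrib, Finset.sum_add_distrib] at h2

theorem K2_mul (hU : IsOpen U) (σ τ : Sl E ι) (W : E → ℝ) (hχ : Sm U χ) (hf : Sm U f)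
    (hz : z ∈ U) :
    χ z ^ 2 * K2 σ τ W f z ≤ 2 * K2 σ τ W (fun z => χ z * f z) z +
      2 * (nK σ τ χ z * f z ^ 2) := by
  have h : ∀ j, χ z ^ 2 * Kj σ τ W f j z ^ 2 ≤ 2 * Kj σ τ W (fun z => χ z * f z) j z ^ 2 +
      2 * (gK σ τ χ j z ^ 2 * f z ^ 2) := fun j => by
    rw [Kj_mul hU σ τ W hχ hf j hz]
    nlinarith [sq_nonneg (χ z * Kj σ τ W f j z + 2 * (gK σ τ χ j z * f z))]
  have h2 := Finset.sum_le_sum fun j (_ : j ∈ Finset.univ) => h j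
  rw [Finset.sum_add_distrib, ← Finset.mul_sum, ← Finset.mul_sum, ← Finset.mul_sum,
    ← Finset.sum_mul] at h2
  exact h2

theorem Y2_mul (hU : IsOpen U) (σ τ : Sl E ι) (W : E → ℝ) (hχ : Sm U χ) (hf : Sm U f)
    (hz : z ∈ U) :
    χ z ^ 2 * Y2 σ τ W f z ≤ 2 * Y2 σ τ W (fun z => χ z * f z) z +
      2 * (nD σ τ χ z * f z ^ 2) := by
  have h : ∀ ρ : Sl E ι, χ z ^ 2 * (∑ i, YY ρ W f i z ^ 2) ≤
      2 * (∑ i, YY ρ W (fun z => χ z * f z) i z ^ 2) + 2 * ((∑ i, ρ.D i χ z ^ 2) * f z ^ 2) :=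
    fun ρ => by
      rw [Finset.mul_sum, Finset.mul_sum, Finset.sum_mul, Finset.mul_sum,
        ← Finset.sum_add_distrib]
      refine Finset.sum_le_sum fun i _ => ?_
      rw [YY_mul' hU ρ W hχ hf i hz]
      nlinarith [sq_nonneg (χ z * YY ρ W f i z + 2 * (ρ.D i χ z * f z))]
  have h1 := h σ
  have h2 := h τ
  rw [Y2, Y2, nD]
  linarith

/-! ## Flat slots -/

omit [Fintype ι] in
theorem YY_sX (h : Flt σ) (W f : E → ℝ) (i : ι) (z : E) : YY σ W f i z = sX σ W i f z := by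
  rw [YY, h.D, h.D, sX, xx]; ring

omit [Fintype ι] in
theorem Kj_sK (h : Flt σ) (h' : Flt τ) (W f : E → ℝ) (j : ι) :
    Kj σ τ W f j = sK σ τ W j f := by
  funext z
  rw [Kj, YY_sX h, YY_sX h', sX, sX, sK, xx_dir]

theorem DK2_le (h : Flt σ) (h' : Flt τ) (W f : E → ℝ) (z : E) :
    DK2 σ τ W f z ≤ 2 * ∑ j, ∑ i, (sX σ W i (sK σ τ W j f) z ^ 2 +
      sX τ W i (sK σ τ W j f) z ^ 2) := by
  rw [DK2, Finset.sum_comm, Finset.mul_sum]
  refine Finset.sum_le_sum fun j _ => ?_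
  rw [Finset.mul_sum]
  refine Finset.sum_le_sum fun i _ => ?_
  rw [DKij, Kj_sK h h', YY_sX h, YY_sX h']
  nlinarith [sq_nonneg (sX σ W i (sK σ τ W j f) z + sX τ W i (sK σ τ W j f) z)]

omit [Fintype ι] in
theorem gK_dd (h : Flt σ) (h' : Flt τ) (f : E → ℝ) (j : ι) (z : E) :
    gK σ τ f j z = dd (σ.e j + τ.e j) f z := by
  rw [gK, h.D, h'.D, dd_dir]

/-- The derivatives of `d χ²`. -/
theorem nD_om (ok : σ.Ok U θ) (hd : Sm U d) (hχ : Sm U χ) (hz : z ∈ U)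
    (hg : nD σ τ d z ≤ Gd z * d z) :
    nD σ τ (fun z => d z * χ z ^ 2) z ≤
      (2 * (χ z ^ 2 * Gd z) + 8 * (d z * nD σ τ χ z)) * (d z * χ z ^ 2) := by
  have hU := ok.op
  have h : ∀ ρ : Sl E ι, ∑ i, ρ.D i (fun z => d z * χ z ^ 2) z ^ 2 ≤
      2 * χ z ^ 4 * (∑ i, ρ.D i d z ^ 2) + 8 * (d z ^ 2 * χ z ^ 2) * ∑ i, ρ.D i χ z ^ 2 :=
    fun ρ => by
      rw [Finset.mul_sum, Finset.mul_sum, ← Finset.sum_add_distrib]
      refine Finset.sum_le_sum fun i _ => ?_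
      rw [D_mul ρ hU hd (hχ.pow 2) i hz, D_sq ρ hU hχ i hz]
      nlinarith [sq_nonneg (ρ.D i d z * χ z ^ 2 - d z * (2 * χ z * ρ.D i χ z))]
  have h1 := h σ
  have h2 := h τ
  have h3 : 2 * χ z ^ 4 * nD σ τ d z ≤ 2 * χ z ^ 4 * (Gd z * d z) :=
    mul_le_mul_of_nonneg_left hg (by positivity)
  rw [nD] at h3 ⊢
  rw [nD]
  nlinarith

theorem sumR (A B C o : ℝ) (p q : ι → ℝ) :
    ∑ j, (A + B * p j + C + 2 * (o * q j)) = Fintype.card ι * A + B * (∑ j, p j) +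
      Fintype.card ι * C + 2 * (o * ∑ j, q j) := by
  rw [Finset.sum_add_distrib, Finset.sum_add_distrib, Finset.sum_add_distrib, Finset.sum_const,
    Finset.sum_const, Finset.card_univ, nsmul_eq_mul, nsmul_eq_mul, ← Finset.mul_sum,
    ← Finset.mul_sum, ← Finset.mul_sum]

/-- The pointwise hypotheses of the fifth cost. -/
structure HF (σ τ : Sl E ι) (v₁ v₂ W d Gd M V hi wc : E → ℝ) (δ ε : ℝ) (z : E) : Prop where
  d0 : 0 ≤ d z
  g0 : 0 ≤ Gd z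
  m0 : nD σ τ W z ≤ M z
  v0 : |v₁ z + v₂ z| ≤ V z
  dg : nD σ τ d z ≤ Gd z * d z
  ds1 : ∀ (j : ι) (ξ η : ι → ℝ), (∑ i, ∑ l, gK σ τ (σ.s i l) j z * ξ i * η l) ^ 2 ≤
    δ ^ 2 * (∑ i, ξ i ^ 2) * ∑ i, η i ^ 2
  ds2 : ∀ (j : ι) (ξ η : ι → ℝ), (∑ i, ∑ l, gK σ τ (τ.s i l) j z * ξ i * η l) ^ 2 ≤
    δ ^ 2 * (∑ i, ξ i ^ 2) * ∑ i, η i ^ 2
  q1 : 1504 * Fintype.card ι * d z ≤ ε
  q2 : 2880 * Gd z + 5600 * (d z * M z) + 16 * (d z * (3 * V z + 2)) ≤ ε * hi z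
  q3 : 416 * Fintype.card ι * δ ^ 2 * d z ≤ ε
  q4 : 16 * (d z * nK σ τ (fun z => v₁ z + v₂ z) z) ≤ ε * wc z

variable [MeasureSpace E] [FiniteDimensional ℝ E] [BorelSpace E]
  [(volume : Measure E).IsAddHaarMeasure]

/-- **(W3c)**, `f` supported in `Ω`. -/
theorem w3c_loc (h : Flt σ) (h' : Flt τ) (ok : σ.Ok Ω fun _ => 1) (ot : τ.Ok Ω fun _ => 1)
    {δ ε : ℝ} (hW : Sm Ω W) (hv₁ : Sm Ω v₁) (hv₂ : Sm Ω v₂) (hχ : Sm Ω χ) (sd : Sm Ω d)
    (sG : Sm Ω Gd) (sM : Sm Ω M) (sV : Sm Ω V) (sh : Sm Ω hi) (sw : Sm Ω wc)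
    (el₁ : ∀ z ∈ Ω, El σ z) (el₂ : ∀ z ∈ Ω, El τ z)
    (H : ∀ z ∈ Ω, HF σ τ v₁ v₂ W d Gd M V hi wc δ ε z) (hf : Te Ω f) :
    In Ω (fun _ => 1) (fun z => d z * DK2 σ τ W (fun z => χ z * f z) z) ≤
      In Ω (fun _ => 1) (fun z => ε * (χ z ^ 2 * Sp σ τ v₁ v₂ W f z ^ 2 +
          hi z * K2 σ τ W (fun z => χ z * f z) z + Y2 σ τ W (fun z => χ z * f z) z +
          χ z ^ 2 * (wc z * f z ^ 2)) +
        (5768 * (d z * nD σ τ χ z * K2 σ τ W f z) + 8 * (d z * nK σ τ χ z * Y2 σ τ W f z) +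
          (ε * (hi z * nK σ τ χ z + nD σ τ χ z) + 4 * (d z * nDK σ τ χ z)) * f z ^ 2)) := by
  have hU := ok.op
  have o1 : Sm Ω fun _ : E => (1 : ℝ) := contDiffOn_const
  have op : ∀ z ∈ Ω, (0 : ℝ) < (fun _ : E => (1 : ℝ)) z := fun _ _ => one_pos
  set om : E → ℝ := fun z => d z * χ z ^ 2 with hom
  have so : Sm Ω om := sd.mul (hχ.pow 2)
  set G : E → ℝ := fun z => 2 * (χ z ^ 2 * Gd z) + 8 * (d z * nD σ τ χ z) with hG
  have snd := snD ok ot hχ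
  have snk := snK ok ot hχ
  have sndk := snDK ok ot hχ
  have sG' : Sm Ω G := (contDiffOn_const.mul ((hχ.pow 2).mul sG)).add
    (contDiffOn_const.mul (sd.mul snd))
  have tχ : Te Ω fun z => χ z * f z := hf.mul_left hU hχ
  -- the left side of `kt2`
  set L : ι → E → ℝ := fun j z => om z *
    ∑ i, (sX σ W i (sK σ τ W j f) z ^ 2 + sX τ W i (sK σ τ W j f) z ^ 2) with hL
  set R : ι → E → ℝ := fun j z => 47 * (om z * (σ.P v₁ W f z + τ.P v₂ W f z) ^ 2) +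
        (90 * G z + 350 * (om z * M z) + om z * (3 * V z + 2)) * sK σ τ W j f z ^ 2 +
        26 * δ ^ 2 * (om z * ∑ i, (sX σ W i f z ^ 2 + sX τ W i f z ^ 2)) +
        2 * (om z * (dd (σ.e j + τ.e j) (fun z => v₁ z + v₂ z) z * f z) ^ 2) with hR
  have key : ∀ j, In Ω (fun _ => 1) (L j) ≤ In Ω (fun _ => 1) (R j) := fun j => by
    refine kt2 (δ := δ) (V := V) h h' ok ot hW hv₁ hv₂ so sG' sM sV hf ?_ ?_ j
      (fun z hz ξ => by have := (el₁ z hz).lo ξ; linarith)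
      (fun z hz ξ => by have := (el₂ z hz).lo ξ; linarith)
      (fun z hz => Vale.Agent.P088.R2.H516.O.cs2 ok (el₁ z hz))
      (fun z hz => Vale.Agent.P088.R2.H516.O.cs2 ot (el₂ z hz)) ?_ ?_ ?_ ?_ fun z hz => (H z hz).v0
    · exact fun z hz => mul_nonneg (H z hz).d0 (sq_nonneg _)
    · exact fun z hz => add_nonneg (mul_nonneg zero_le_two (mul_nonneg (sq_nonneg _)
        (H z hz).g0)) (mul_nonneg (by norm_num) (mul_nonneg (H z hz).d0 (nD_nn _ _ _ _)))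
    · intro z hz ξ η
      have := (H z hz).ds1 j ξ η
      simpa only [gK_dd h h'] using this
    · intro z hz ξ η
      have := (H z hz).ds2 j ξ η
      simpa only [gK_dd h h'] using this
    · intro z hz
      have h1 := nD_om (σ := σ) (τ := τ) ok sd hχ hz (H z hz).dg
      rw [nD, ← Finset.sum_add_distrib] at h1
      simp only [h.D, h'.D] at h1
      exact h1
    · intro z hz
      have h1 := (H z hz).m0
      rw [nD, ← Finset.sum_add_distrib] at h1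
      simpa only [h.D, h'.D] using h1
  -- test functions
  have tX : ∀ {g : E → ℝ}, Te Ω g → ∀ ρ : Sl E ι, ∀ i, Te Ω (sX ρ W i g) :=
    fun hg ρ i => txx hU hW hg (ρ.e i)
  have tK : ∀ j, Te Ω (sK σ τ W j f) := fun j => txx hU hW hf (σ.e j + τ.e j)
  have tsum : ∀ {g : E → ℝ}, Te Ω g → Te Ω fun z => ∑ i, (sX σ W i g z ^ 2 + sX τ W i g z ^ 2) :=
    fun hg => Te.sum hU _ fun i _ => ((tX hg σ i).sq hU).add hU ((tX hg τ i).sq hU)
  have tL : ∀ j, Te Ω (L j) := fun j => (tsum (tK j)).mul_left hU so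
  have tR : ∀ j, Te Ω (R j) := fun j =>
    (((((((ok.tP hv₁ hW hf).add hU (ot.tP hv₂ hW hf)).sq hU).mul_left hU so).cmul hU 47).add hU
      (((tK j).sq hU).mul_left hU (((contDiffOn_const.mul sG').add
        (contDiffOn_const.mul (so.mul sM))).add
        (so.mul ((contDiffOn_const.mul sV).add contDiffOn_const))))).add hU
      (((tsum hf).mul_left hU so).cmul hU (26 * δ ^ 2))).add hU
      ((((hf.mul_left hU (sdd hU (hv₁.add hv₂) (σ.e j + τ.e j))).sq hU).mul_left hU so).cmul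
        hU 2)
  have tk2 := tK2 ok ot hW hf
  have ty2 := tY2 ok ot hW hf
  set rest : E → ℝ := fun z => d z * (8 * (nD σ τ χ z * K2 σ τ W f z) +
    8 * (nK σ τ χ z * Y2 σ τ W f z) + 4 * (nDK σ τ χ z * f z ^ 2)) with hrest
  have trest : Te Ω rest := (((((tk2.mul_left hU snd).cmul hU 8).add hU
    ((ty2.mul_left hU snk).cmul hU 8)).add hU
    (((hf.sq hU).mul_left hU sndk).cmul hU 4))).mul_left hU sd
  have tLs : Te Ω fun z => ∑ j, L j z := Te.sum hU _ fun j _ => tL j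
  have tRs : Te Ω fun z => ∑ j, R j z := Te.sum hU _ fun j _ => tR j
  -- step 1
  have st1 : In Ω (fun _ => 1) (fun z => d z * DK2 σ τ W (fun z => χ z * f z) z) ≤
      In Ω (fun _ => 1) (fun z => 8 * (∑ j, L j z) + rest z) := by
    refine In_mono hU op o1 ((tDK2 ok ot hW tχ).mul_left hU sd)
      ((tLs.cmul hU 8).add hU trest) fun z hz => ?_
    have a1 := DK2_mul ok ot hW hχ hf.sm hz
    have a2 := DK2_le h h' W f z
    have d0 := (H z hz).d0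
    have e1 : ∑ j, L j z = d z * χ z ^ 2 * ∑ j, ∑ i, (sX σ W i (sK σ τ W j f) z ^ 2 +
      sX τ W i (sK σ τ W j f) z ^ 2) := by
      rw [Finset.mul_sum]
    rw [e1]
    have a3 := mul_le_mul_of_nonneg_left a1 d0
    have a4 := mul_le_mul_of_nonneg_left a2 (mul_nonneg d0 (sq_nonneg (χ z)))
    simp only [hrest]
    linarith
  -- step 2
  have st2 : In Ω (fun _ => 1) (fun z => 8 * (∑ j, L j z) + rest z) ≤
      In Ω (fun _ => 1) (fun z => 8 * (∑ j, R j z) + rest z) := by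
    rw [In_add hU o1 (tLs.cmul hU 8) trest, In_add hU o1 (tRs.cmul hU 8) trest, In_cmul, In_cmul,
      In_sum hU o1 _ fun j _ => tL j, In_sum hU o1 _ fun j _ => tR j]
    have := Finset.sum_le_sum fun j (_ : j ∈ Finset.univ) => key j
    linarith
  refine st1.trans (st2.trans ?_)
  -- step 3
  have tSp : Te Ω (Sp σ τ v₁ v₂ W f) :=
    (((ok.tP hv₁ hW hf).add hU (ot.tP hv₂ hW hf)).cmul hU (1 / 2)).congr fun z => by
      rw [Sp]; ring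
  refine In_mono hU op o1 ((tRs.cmul hU 8).add hU trest) ?_ fun z hz => ?_
  · refine ((((((tSp.sq hU).mul_left hU (hχ.pow 2)).add hU
      ((tK2 ok ot hW tχ).mul_left hU sh)).add hU (tY2 ok ot hW tχ)).add hU
      (((hf.sq hU).mul_left hU sw).mul_left hU (hχ.pow 2))).cmul hU ε).add hU ?_
    exact (((tk2.mul_left hU (sd.mul snd)).cmul hU 5768).add hU
      ((ty2.mul_left hU (sd.mul snk)).cmul hU 8)).add hU
      ((hf.sq hU).mul_left hU ((contDiffOn_const.mul ((sh.mul snk).add snd)).add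
        (contDiffOn_const.mul (sd.mul sndk))))
  have HH := H z hz
  have d0 := HH.d0
  have x0 := sq_nonneg (χ z)
  have e1 : ∑ j, R j z = 47 * Fintype.card ι * (om z * (σ.P v₁ W f z + τ.P v₂ W f z) ^ 2) +
      (90 * G z + 350 * (om z * M z) + om z * (3 * V z + 2)) * K2 σ τ W f z +
      26 * δ ^ 2 * Fintype.card ι * (om z * Y2 σ τ W f z) +
      2 * (om z * (nK σ τ (fun z => v₁ z + v₂ z) z * f z ^ 2)) := by
    have a1 : K2 σ τ W f z = ∑ j, sK σ τ W j f z ^ 2 := by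
      rw [K2]; exact Finset.sum_congr rfl fun j _ => by rw [Kj_sK h h']
    have a2 : Y2 σ τ W f z = ∑ i, (sX σ W i f z ^ 2 + sX τ W i f z ^ 2) := by
      rw [Y2, Finset.sum_add_distrib]
      simp only [YY_sX h, YY_sX h']
    have a3 : nK σ τ (fun z => v₁ z + v₂ z) z * f z ^ 2 =
        ∑ j, (dd (σ.e j + τ.e j) (fun z => v₁ z + v₂ z) z * f z) ^ 2 := by
      rw [nK, Finset.sum_mul]
      exact Finset.sum_congr rfl fun j _ => by rw [gK_dd h h']; ring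
    have a4 := sumR (47 * (om z * (σ.P v₁ W f z + τ.P v₂ W f z) ^ 2))
      (90 * G z + 350 * (om z * M z) + om z * (3 * V z + 2))
      (26 * δ ^ 2 * (om z * ∑ i, (sX σ W i f z ^ 2 + sX τ W i f z ^ 2))) (om z)
      (fun j => sK σ τ W j f z ^ 2)
      fun j => (dd (σ.e j + τ.e j) (fun z => v₁ z + v₂ z) z * f z) ^ 2
    rw [a1, a2, a3, a4]
    ring
  have e2 : (σ.P v₁ W f z + τ.P v₂ W f z) ^ 2 = 4 * Sp σ τ v₁ v₂ W f z ^ 2 := by
    rw [Sp]; ring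
  rw [e1, e2]
  simp only [hom, hG, hrest]
  have k2 := K2_nn σ τ W f z
  have y2 := Y2_nn σ τ W f z
  have nd := nD_nn σ τ χ z
  have nk := nK_nn σ τ χ z
  have m0 : 0 ≤ M z := (nD_nn σ τ W z).trans HH.m0
  have V0 : 0 ≤ V z := (abs_nonneg _).trans HH.v0
  have ε0 : 0 ≤ ε := le_trans (by positivity) HH.q1
  have eh : 0 ≤ ε * hi z := le_trans (by have := HH.g0; positivity) HH.q2
  have b1 := mul_le_mul_of_nonneg_right HH.q1
    (mul_nonneg x0 (sq_nonneg (Sp σ τ v₁ v₂ W f z)))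
  have b2 := mul_le_mul_of_nonneg_right HH.q2 (mul_nonneg x0 k2)
  have b3 := mul_le_mul_of_nonneg_right HH.q3 (mul_nonneg x0 y2)
  have b4 := mul_le_mul_of_nonneg_right HH.q4 (mul_nonneg x0 (sq_nonneg (f z)))
  have b5 := mul_le_mul_of_nonneg_left (K2_mul hU σ τ W hχ hf.sm hz) eh
  have b6 := mul_le_mul_of_nonneg_left (Y2_mul hU σ τ W hχ hf.sm hz) ε0
  nlinarith

end Vale.Agent.P088.R2.H856.O
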