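import Vale.Agent.P088.R2.H516.O.Pay
import Vale.Agent.P088.R2.H747.S.SemW3
import Vale.Agent.P088.R2.H856.O.W3c

/-!
# The hypothesis `H5` of the outer cut-off
-/

open MeasureTheory Set Filter
open scoped ContDiff Topology

noncomputable section

namespace Vale.Agent.P088.R2.H856.O

open Vale.Agent.P088.R2.H961.GW Vale.Agent.P088.R2.H960.W Vale.Agent.P088.R2.H551.E
open Vale.Agent.P088.R2.H516.O (Sp)
open Vale.Agent.P088.R2.H86.Z (El)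
open Vale.Agent.P088.R2.H676.F (Kj DKij K2 Y2 DK2 Mxt Mxf F5t)

variable {E ι : Type*} [NormedAddCommGroup E] [NormedSpace ℝ E]

variable {σ τ : Sl E ι} {U Ω : Set E} {θ W f g χ v v₁ v₂ d hi wc M V Gd a b : E → ℝ} {z : E}

/-! ## Locality -/

theorem YY_ev (σ : Sl E ι) (W : E → ℝ) (h : f =ᶠ[𝓝 z] g) (i : ι) :
    YY σ W f i z = YY σ W g i z := by
  rw [YY, YY, D_congr_nhds σ h i, h.eq_of_nhds]

theorem Kj_ev (σ τ : Sl E ι) (W : E → ℝ) (h : f =ᶠ[𝓝 z] g) (j : ι) :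
    Kj σ τ W f j =ᶠ[𝓝 z] Kj σ τ W g j := by
  filter_upwards [h.eventuallyEq_nhds] with w hw
  rw [Kj, Kj, YY_ev σ W hw, YY_ev τ W hw]

variable [Fintype ι]

theorem K2_ev (σ τ : Sl E ι) (W : E → ℝ) (h : f =ᶠ[𝓝 z] g) : K2 σ τ W f z = K2 σ τ W g z := by
  rw [K2, K2]
  exact Finset.sum_congr rfl fun j _ => by rw [(Kj_ev σ τ W h j).eq_of_nhds]

theorem Y2_ev (σ τ : Sl E ι) (W : E → ℝ) (h : f =ᶠ[𝓝 z] g) : Y2 σ τ W f z = Y2 σ τ W g z := by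
  rw [Y2, Y2]
  simp only [YY_ev σ W h, YY_ev τ W h]

theorem DK2_ev (σ τ : Sl E ι) (W : E → ℝ) (h : f =ᶠ[𝓝 z] g) :
    DK2 σ τ W f z = DK2 σ τ W g z := by
  rw [DK2, DK2]
  refine Finset.sum_congr rfl fun i _ => Finset.sum_congr rfl fun j _ => ?_
  rw [DKij, DKij, YY_ev σ W (Kj_ev σ τ W h j), YY_ev τ W (Kj_ev σ τ W h j)]

theorem Sp_ev (σ τ : Sl E ι) (v₁ v₂ W : E → ℝ) (h : f =ᶠ[𝓝 z] g) :
    Sp σ τ v₁ v₂ W f z = Sp σ τ v₁ v₂ W g z := by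
  rw [Sp, Sp, (P_congr_nhds v₁ W h).eq_of_nhds, (P_congr_nhds v₂ W h).eq_of_nhds]

omit [Fintype ι] in
theorem YY_z (σ : Sl E ι) (W : E → ℝ) (i : ι) : YY σ W (fun _ => 0) i z = 0 := by
  rw [YY, D_const]; ring

omit [Fintype ι] in
theorem Kj_z (σ τ : Sl E ι) (W : E → ℝ) (j : ι) : Kj σ τ W (fun _ => 0) j = fun _ => 0 := by
  funext z; rw [Kj, YY_z, YY_z, add_zero]

theorem K2_z (σ τ : Sl E ι) (W : E → ℝ) : K2 σ τ W (fun _ => 0) z = 0 := by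
  rw [K2]; simp [Kj_z]

theorem Y2_z (σ τ : Sl E ι) (W : E → ℝ) : Y2 σ τ W (fun _ => 0) z = 0 := by
  rw [Y2]; simp [YY_z]

theorem DK2_z (σ τ : Sl E ι) (W : E → ℝ) : DK2 σ τ W (fun _ => 0) z = 0 := by
  rw [DK2]; simp [DKij, Kj_z, YY_z]

theorem nD_z (σ τ : Sl E ι) (h : χ =ᶠ[𝓝 z] fun _ => 0) : nD σ τ χ z = 0 := by
  rw [nD]
  simp [D_congr_nhds σ h, D_congr_nhds τ h, D_const]

omit [Fintype ι] in
theorem gK_z (σ τ : Sl E ι) (h : χ =ᶠ[𝓝 z] fun _ => 0) (j : ι) :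
    gK σ τ χ j =ᶠ[𝓝 z] fun _ => 0 := by
  filter_upwards [h.eventuallyEq_nhds] with w hw
  rw [gK, D_congr_nhds σ hw, D_congr_nhds τ hw, D_const, D_const, add_zero]

theorem nK_z (σ τ : Sl E ι) (h : χ =ᶠ[𝓝 z] fun _ => 0) : nK σ τ χ z = 0 := by
  rw [nK]
  exact Finset.sum_eq_zero fun j _ => by rw [(gK_z σ τ h j).eq_of_nhds]; ring

theorem nDK_z (σ τ : Sl E ι) (h : χ =ᶠ[𝓝 z] fun _ => 0) : nDK σ τ χ z = 0 := by
  rw [nDK]
  refine Finset.sum_eq_zero fun i _ => Finset.sum_eq_zero fun j _ => ?_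
  rw [D_congr_nhds σ (gK_z σ τ h j), D_congr_nhds τ (gK_z σ τ h j), D_const, D_const]; ring

theorem cf_z (f : E → ℝ) (h : χ =ᶠ[𝓝 z] fun _ => 0) :
    (fun z => χ z * f z) =ᶠ[𝓝 z] fun _ => 0 := by
  filter_upwards [h] with w hw
  rw [hw, zero_mul]

theorem cf_ev (χ : E → ℝ) (h : f =ᶠ[𝓝 z] g) :
    (fun z => χ z * f z) =ᶠ[𝓝 z] fun z => χ z * g z := by
  filter_upwards [h] with w hw
  rw [hw]

theorem sm_up (hΩ : IsOpen Ω) (hS : U ∩ tsupport χ ⊆ Ω) {q : E → ℝ}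
    (hq : Sm Ω q) (h0 : ∀ z, χ =ᶠ[𝓝 z] (fun _ => 0) → q z = 0) : Sm U q := by
  intro z hz
  by_cases hc : z ∈ tsupport χ
  · exact (hq.at hΩ (hS ⟨hz, hc⟩)).contDiffWithinAt
  · have h1 : q =ᶠ[𝓝 z] fun _ => 0 := by
      filter_upwards [(notMem_tsupport_iff_eventuallyEq.1 hc).eventuallyEq_nhds] with w hw
      exact h0 w hw
    exact (contDiffAt_const.congr_of_eventuallyEq h1).contDiffWithinAt

theorem off_ts (h : z ∉ tsupport χ) : χ =ᶠ[𝓝 z] fun _ => 0 := notMem_tsupport_iff_eventuallyEq.1 h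

variable [MeasureSpace E]

/-- Change of the function away from the support of `χ`. -/
theorem In_germ (hU : IsOpen U) (hΩ : Ω ⊆ U) (hS : U ∩ tsupport χ ⊆ Ω) {f₁ : E → ℝ}
    (hf : ∀ z ∈ U ∩ tsupport χ, f₁ =ᶠ[𝓝 z] f) (Φ : (E → ℝ) → E → ℝ)
    [BorelSpace E]
    (h1 : ∀ f g : E → ℝ, ∀ z, f =ᶠ[𝓝 z] g → Φ f z = Φ g z)
    (h2 : ∀ f : E → ℝ, ∀ z, χ =ᶠ[𝓝 z] (fun _ => 0) → Φ f z = 0) :
    In U θ (Φ f) = In Ω θ (Φ f₁) := by
  rw [In_res (θ := θ) hΩ hU.measurableSet (f := Φ f₁) fun z hz hzΩ =>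
    h2 _ _ (off_ts fun h => hzΩ (hS ⟨hz, h⟩))]
  unfold In
  refine setIntegral_congr_fun hU.measurableSet fun z hz => ?_
  by_cases hc : z ∈ tsupport χ
  · simp only [h1 _ _ _ (hf z ⟨hz, hc⟩)]
  · simp only [h2 _ _ (off_ts hc)]

variable [FiniteDimensional ℝ E] [BorelSpace E] [(volume : Measure E).IsAddHaarMeasure]

/-- **(W3c)**: `f` is not cut. -/
theorem w3c (h : Flt σ) (h' : Flt τ) (hΩ : IsOpen Ω) (hΩU : Ω ⊆ U) (hS : U ∩ tsupport χ ⊆ Ω)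
    (ok : σ.Ok U fun _ => 1) (ot : τ.Ok U fun _ => 1)
    {δ ε : ℝ} (hW : Sm Ω W) (hv₁ : Sm Ω v₁) (hv₂ : Sm Ω v₂) (hχ : Sm Ω χ) (sd : Sm Ω d)
    (sG : Sm Ω Gd) (sM : Sm Ω M) (sV : Sm Ω V) (sh : Sm Ω hi) (sw : Sm Ω wc)
    (el₁ : ∀ z ∈ Ω, El σ z) (el₂ : ∀ z ∈ Ω, El τ z)
    (H : ∀ z ∈ Ω, HF σ τ v₁ v₂ W d Gd M V hi wc δ ε z) (hf : Te U f) :
    In U (fun _ => 1) (fun z => d z * DK2 σ τ W (fun z => χ z * f z) z) ≤
      ε * (In U (fun _ => 1) (fun z => χ z ^ 2 * Sp σ τ v₁ v₂ W f z ^ 2) +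
        In U (fun _ => 1) (fun z => hi z * K2 σ τ W (fun z => χ z * f z) z) +
        In U (fun _ => 1) (Y2 σ τ W (fun z => χ z * f z)) +
        In U (fun _ => 1) (fun z => χ z ^ 2 * (wc z * f z ^ 2))) +
      (5768 * In U (fun _ => 1) (fun z => d z * nD σ τ χ z * K2 σ τ W f z) +
        8 * In U (fun _ => 1) (fun z => d z * nK σ τ χ z * Y2 σ τ W f z) +
        In U (fun _ => 1) (fun z =>
          (ε * (hi z * nK σ τ χ z + nD σ τ χ z) + 4 * (d z * nDK σ τ χ z)) * f z ^ 2)) := by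
  have hU := ok.op
  have okΩ := Ok_mono ok hΩ hΩU
  have otΩ := Ok_mono ot hΩ hΩU
  obtain ⟨f₁, tf, hf₁⟩ := Vale.Agent.P088.R2.H747.SW.ext_te hΩ hf (isClosed_tsupport χ) hS
  have key := w3c_loc h h' okΩ otΩ hW hv₁ hv₂ hχ sd sG sM sV sh sw el₁ el₂ H tf
  have G := fun Φ h1 h2 => In_germ (θ := fun _ : E => (1 : ℝ)) hU hΩU hS hf₁ Φ h1 h2
  have o1 : Sm Ω fun _ : E => (1 : ℝ) := contDiffOn_const
  have tSp : Te Ω (Sp σ τ v₁ v₂ W f₁) :=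
    (((okΩ.tP hv₁ hW tf).add hΩ (otΩ.tP hv₂ hW tf)).cmul hΩ (1 / 2)).congr fun z => by
      rw [Sp]; ring
  have tχ : Te Ω fun z => χ z * f₁ z := tf.mul_left hΩ hχ
  have u1 : Te Ω fun z => χ z ^ 2 * Sp σ τ v₁ v₂ W f₁ z ^ 2 := (tSp.sq hΩ).mul_left hΩ (hχ.pow 2)
  have u2 : Te Ω fun z => hi z * K2 σ τ W (fun z => χ z * f₁ z) z :=
    (tK2 okΩ otΩ hW tχ).mul_left hΩ sh
  have u3 : Te Ω (Y2 σ τ W (fun z => χ z * f₁ z)) := tY2 okΩ otΩ hW tχ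
  have u4 : Te Ω fun z => χ z ^ 2 * (wc z * f₁ z ^ 2) :=
    ((tf.sq hΩ).mul_left hΩ sw).mul_left hΩ (hχ.pow 2)
  have u5 : Te Ω fun z => d z * nD σ τ χ z * K2 σ τ W f₁ z :=
    (tK2 okΩ otΩ hW tf).mul_left hΩ (sd.mul (snD okΩ otΩ hχ))
  have u6 : Te Ω fun z => d z * nK σ τ χ z * Y2 σ τ W f₁ z :=
    (tY2 okΩ otΩ hW tf).mul_left hΩ (sd.mul (snK okΩ otΩ hχ))
  have u7 : Te Ω fun z => (ε * (hi z * nK σ τ χ z + nD σ τ χ z) + 4 * (d z * nDK σ τ χ z)) *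
      f₁ z ^ 2 :=
    (tf.sq hΩ).mul_left hΩ ((contDiffOn_const.mul ((sh.mul (snK okΩ otΩ hχ)).add
      (snD okΩ otΩ hχ))).add (contDiffOn_const.mul (sd.mul (snDK okΩ otΩ hχ))))
  rw [G (fun f z => d z * DK2 σ τ W (fun z => χ z * f z) z)
      (fun f g z h => by simp only [DK2_ev σ τ W (cf_ev χ h)])
      (fun f z h => by simp only [DK2_ev σ τ W (cf_z f h), DK2_z, mul_zero]),
    G (fun f z => χ z ^ 2 * Sp σ τ v₁ v₂ W f z ^ 2)
      (fun f g z h => by simp only [Sp_ev σ τ v₁ v₂ W h])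
      (fun f z h => by simp only [h.eq_of_nhds]; ring),
    G (fun f z => hi z * K2 σ τ W (fun z => χ z * f z) z)
      (fun f g z h => by simp only [K2_ev σ τ W (cf_ev χ h)])
      (fun f z h => by simp only [K2_ev σ τ W (cf_z f h), K2_z, mul_zero]),
    G (fun f => Y2 σ τ W (fun z => χ z * f z))
      (fun f g z h => by simp only [Y2_ev σ τ W (cf_ev χ h)])
      (fun f z h => by simp only [Y2_ev σ τ W (cf_z f h), Y2_z]),
    G (fun f z => χ z ^ 2 * (wc z * f z ^ 2))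
      (fun f g z h => by simp only [h.eq_of_nhds])
      (fun f z h => by simp only [h.eq_of_nhds]; ring),
    G (fun f z => d z * nD σ τ χ z * K2 σ τ W f z)
      (fun f g z h => by simp only [K2_ev σ τ W h])
      (fun f z h => by simp only [nD_z σ τ h]; ring),
    G (fun f z => d z * nK σ τ χ z * Y2 σ τ W f z)
      (fun f g z h => by simp only [Y2_ev σ τ W h])
      (fun f z h => by simp only [nK_z σ τ h]; ring),
    G (fun f z => (ε * (hi z * nK σ τ χ z + nD σ τ χ z) + 4 * (d z * nDK σ τ χ z)) * f z ^ 2)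
      (fun f g z h => by simp only [h.eq_of_nhds])
      (fun f z h => by simp only [nD_z σ τ h, nK_z σ τ h, nDK_z σ τ h]; ring)]
  refine key.trans (le_of_eq ?_)
  rw [In_add hΩ o1 ((((u1.add hΩ u2).add hΩ u3).add hΩ u4).cmul hΩ ε)
      (((u5.cmul hΩ 5768).add hΩ (u6.cmul hΩ 8)).add hΩ u7), In_cmul,
    In_add hΩ o1 ((u1.add hΩ u2).add hΩ u3) u4, In_add hΩ o1 (u1.add hΩ u2) u3,
    In_add hΩ o1 u1 u2, In_add hΩ o1 ((u5.cmul hΩ 5768).add hΩ (u6.cmul hΩ 8)) u7,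
    In_add hΩ o1 (u5.cmul hΩ 5768) (u6.cmul hΩ 8), In_cmul, In_cmul]

theorem Sp_sub (ok : σ.Ok U θ) (ot : τ.Ok U θ) (v₁ v₂ : E → ℝ) (hW : Sm U W) (ha : Sm U a)
    (hb : Sm U b) (hz : z ∈ U) :
    Sp σ τ v₁ v₂ W (fun z => a z - b z) z ^ 2 ≤ sqd σ τ v₁ v₂ W a b z := by
  have k : ∀ (ρ : Sl E ι) (v : E → ℝ), ρ.Ok U θ →
      ρ.P v W (fun z => a z - b z) z = ρ.P v W a z - ρ.P v W b z := fun ρ v ho => by
    have h1 := P_add (v := v) ho hW (ha.sub hb) hb hz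
    have h2 : (fun z => (a z - b z) + b z) = a := by funext z; ring
    rw [h2] at h1
    linarith
  rw [Sp, k σ v₁ ok, k τ v₂ ot, sqd]
  set p := σ.P v₁ W a z
  set q := σ.P v₁ W b z
  set r := τ.P v₂ W a z
  set s := τ.P v₂ W b z
  nlinarith [sq_nonneg (p + q), sq_nonneg (p - r), sq_nonneg (p + s), sq_nonneg (q + r),
    sq_nonneg (q - s), sq_nonneg (r + s)]

/-- **(H5)** for two flat slots. -/
theorem h5 (h : Flt σ) (h' : Flt τ) (hΩ : IsOpen Ω) (hΩU : Ω ⊆ U) (hS : U ∩ tsupport χ ⊆ Ω)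
    (ok : σ.Ok U fun _ => 1) (ot : τ.Ok U fun _ => 1) (el₁ : ∀ z ∈ U, El σ z)
    (el₂ : ∀ z ∈ U, El τ z) {ψ om w g e f₀ Z Z' : E → ℝ}
    {δ ε c₀ C : ℝ} (hW : Sm U W) (hv₁ : Sm U v₁) (hv₂ : Sm U v₂) (hχ : Sm U χ) (sd : Sm Ω d)
    (sG : Sm Ω Gd) (sM : Sm Ω M) (sV : Sm Ω V) (sh : Sm Ω hi) (sw : Sm Ω wc)
    (hψ : Sm U ψ) (hom : Sm U om) (hw : Sm U w) (hg : Sm U g) (he : Sm U e) (hf₀ : Sm U f₀)
    (hZ : Sm U Z) (hZ' : Sm U Z') {hh : E → ℝ}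
    (HO : ∀ z ∈ U, Vale.Agent.P088.R2.H516.O.HO σ τ v₁ v₂ W χ ψ om w g e hh f₀ Z Z' z)
    (HH : ∀ z ∈ Ω, HF σ τ v₁ v₂ W d Gd M V hi wc δ ε z)
    (h0 : ∀ z ∈ Ω, 0 ≤ hi z) (w0 : ∀ z ∈ Ω, 0 ≤ wc z)
    (p1 : ∀ z ∈ Ω, 11536 * d z ≤ 1)
    (p2 : ∀ z ∈ Ω, ∑ j, (σ.D j χ z + τ.D j χ z) ^ 2 ≤ om z ^ 2)
    (p3 : ∀ z ∈ Ω, ε * (hi z * nK σ τ χ z + nD σ τ χ z) + 4 * (d z * nDK σ τ χ z) ≤ Z z * f₀ z)
    (hC : 0 ≤ C) (hε : 0 ≤ ε) (hCε : C * ε ≤ c₀ / 2) :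
    Vale.Agent.P088.R2.H516.O.H5 σ τ U (fun _ => 1) v₁ v₂ W χ g e f₀ wc Z Z'
      (Mxf σ τ U (fun _ => 1) W hi) (F5t σ τ U (fun _ => 1) W d) c₀ C (85 * C) := by
  intro a b ha hb
  have hU := ok.op
  have o1 : Sm U fun _ : E => (1 : ℝ) := contDiffOn_const
  have op : ∀ z ∈ U, (0 : ℝ) < (fun _ : E => (1 : ℝ)) z := fun _ _ => one_pos
  have tf : Te U fun z => a z - b z := ha.sub hU hb
  have key := w3c h h' hΩ hΩU hS ok ot (hW.mono hΩU) (hv₁.mono hΩU) (hv₂.mono hΩU)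
    (hχ.mono hΩU) sd sG sM sV sh sw (fun z hz => el₁ z (hΩU hz)) (fun z hz => el₂ z (hΩU hz))
    HH tf
  have e0 : (fun z => χ z * (a z - b z)) = fun z => χ z * a z - χ z * b z := by
    funext z; ring
  rw [e0] at key
  have tχ : Te U fun z => χ z * a z - χ z * b z :=
    (ha.mul_left hU hχ).sub hU (hb.mul_left hU hχ)
  have off : ∀ z ∈ U, z ∉ Ω → χ =ᶠ[𝓝 z] fun _ => 0 := fun z hz hn =>
    off_ts fun hc => hn (hS ⟨hz, hc⟩)
  -- the squares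
  have tSp : Te U (Sp σ τ v₁ v₂ W fun z => a z - b z) :=
    (((ok.tP hv₁ hW tf).add hU (ot.tP hv₂ hW tf)).cmul hU (1 / 2)).congr fun z => by
      rw [Sp]; ring
  have tsq : Te U (sqd σ τ v₁ v₂ W a b) :=
    ((((ok.tP hv₁ hW ha).sq hU).add hU ((ot.tP hv₂ hW hb).sq hU)).add hU
      ((ot.tP hv₂ hW ha).sq hU)).add hU ((ok.tP hv₁ hW hb).sq hU)
  have m1 : In U (fun _ => 1) (fun z => χ z ^ 2 * Sp σ τ v₁ v₂ W (fun z => a z - b z) z ^ 2) ≤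
      In U (fun _ => 1) (fun z => χ z ^ 2 * sqd σ τ v₁ v₂ W a b z) :=
    In_mono hU op o1 ((tSp.sq hU).mul_left hU (hχ.pow 2)) (tsq.mul_left hU (hχ.pow 2))
      fun z hz => mul_le_mul_of_nonneg_left (Sp_sub ok ot v₁ v₂ hW ha.sm hb.sm hz) (sq_nonneg _)
  -- signs
  have n1 : 0 ≤ In U (fun _ => 1) (fun z => χ z ^ 2 * sqd σ τ v₁ v₂ W a b z) :=
    In_nonneg hU op fun z _ => mul_nonneg (sq_nonneg _) (sqd_nonneg σ τ v₁ v₂ W a b z)
  have n2 : 0 ≤ In U (fun _ => 1) (fun z => hi z *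
      K2 σ τ W (fun z => χ z * a z - χ z * b z) z) := In_nonneg hU op fun z hz => by
    by_cases hc : z ∈ Ω
    · exact mul_nonneg (h0 z hc) (K2_nn _ _ _ _ _)
    · rw [← e0, K2_ev σ τ W (cf_z _ (off z hz hc)), K2_z, mul_zero]
  have n3 : 0 ≤ In U (fun _ => 1) (Y2 σ τ W (fun z => χ z * a z - χ z * b z)) :=
    In_nonneg hU op fun z _ => Y2_nn _ _ _ _ _
  have n4 : 0 ≤ In U (fun _ => 1) (fun z => χ z ^ 2 * (wc z * (a z - b z) ^ 2)) :=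
    In_nonneg hU op fun z hz => by
      by_cases hc : z ∈ Ω
      · exact mul_nonneg (sq_nonneg _) (mul_nonneg (w0 z hc) (sq_nonneg _))
      · rw [(off z hz hc).eq_of_nhds]; simp
  have n5 : 0 ≤ In U (fun _ => 1) (fun z => χ z ^ 2 * (e z * (a z + b z) ^ 2)) :=
    In_nonneg hU op fun z hz => mul_nonneg (sq_nonneg _) (mul_nonneg (HO z hz).e0 (sq_nonneg _))
  have n6 : 0 ≤ In U (fun _ => 1) (fun z => hi z *
      Y2 σ τ W (fun z => χ z * a z + χ z * b z) z) := In_nonneg hU op fun z hz => by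
    by_cases hc : z ∈ Ω
    · exact mul_nonneg (h0 z hc) (Y2_nn _ _ _ _ _)
    · have e1 : (fun z => χ z * a z + χ z * b z) = fun z => χ z * (a z + b z) := by
        funext z; ring
      rw [e1, Y2_ev σ τ W (cf_z _ (off z hz hc)), Y2_z, mul_zero]
  -- the raw energies
  have okΩ := Ok_mono ok hΩ hΩU
  have otΩ := Ok_mono ot hΩ hΩU
  have sχ := hχ.mono hΩU
  have s1 : Sm U fun z => d z * nD σ τ χ z :=
    sm_up hΩ hS (sd.mul (snD okΩ otΩ sχ)) fun z hz => by rw [nD_z σ τ hz, mul_zero]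
  have s2 : Sm U fun z => d z * nK σ τ χ z :=
    sm_up hΩ hS (sd.mul (snK okΩ otΩ sχ)) fun z hz => by rw [nK_z σ τ hz, mul_zero]
  have s3 : Sm U fun z => ε * (hi z * nK σ τ χ z + nD σ τ χ z) + 4 * (d z * nDK σ τ χ z) :=
    sm_up hΩ hS ((contDiffOn_const.mul ((sh.mul (snK okΩ otΩ sχ)).add
      (snD okΩ otΩ sχ))).add (contDiffOn_const.mul (sd.mul (snDK okΩ otΩ sχ)))) fun z hz => by
        rw [nD_z σ τ hz, nK_z σ τ hz, nDK_z σ τ hz]; ring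
  have tk := tK2 ok ot hW tf
  have ty := tY2 ok ot hW tf
  have r1 : 5768 * In U (fun _ => 1) (fun z => d z * nD σ τ χ z *
      K2 σ τ W (fun z => a z - b z) z) ≤
      In U (fun _ => 1) (fun z => ψ z ^ 2 * K2 σ τ W (fun z => a z - b z) z) := by
    rw [← In_cmul]
    refine In_mono hU op o1 ((tk.mul_left hU s1).cmul hU 5768) (tk.mul_left hU (hψ.pow 2))
      fun z hz => ?_
    have k0 := K2_nn σ τ W (fun z => a z - b z) z
    by_cases hc : z ∈ Ω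
    · have q1 := (HO z hz).d1
      have q2 := (HO z hz).d2
      have q3 := (HH z hc).d0
      have q4 := p1 z hc
      have q5 : nD σ τ χ z ≤ 2 * ψ z ^ 2 := by rw [nD]; linarith
      have q6 : 5768 * (d z * nD σ τ χ z) ≤ ψ z ^ 2 := by
        have := mul_le_mul_of_nonneg_left q5 q3
        nlinarith [sq_nonneg (ψ z)]
      have := mul_le_mul_of_nonneg_right q6 k0
      linarith
    · rw [nD_z σ τ (off z hz hc)]
      have := mul_nonneg (sq_nonneg (ψ z)) k0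
      linarith
  have r2 : 8 * In U (fun _ => 1) (fun z => d z * nK σ τ χ z *
      Y2 σ τ W (fun z => a z - b z) z) ≤
      In U (fun _ => 1) (fun z => om z ^ 2 * Y2 σ τ W (fun z => a z - b z) z) := by
    rw [← In_cmul]
    refine In_mono hU op o1 ((ty.mul_left hU s2).cmul hU 8) (ty.mul_left hU (hom.pow 2))
      fun z hz => ?_
    have k0 := Y2_nn σ τ W (fun z => a z - b z) z
    by_cases hc : z ∈ Ω
    · have q1 : nK σ τ χ z ≤ om z ^ 2 := p2 z hc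
      have q3 := (HH z hc).d0
      have q4 := p1 z hc
      have q6 : 8 * (d z * nK σ τ χ z) ≤ om z ^ 2 := by
        have := mul_le_mul_of_nonneg_left q1 q3
        nlinarith [sq_nonneg (om z)]
      have := mul_le_mul_of_nonneg_right q6 k0
      linarith
    · rw [nK_z σ τ (off z hz hc)]
      have := mul_nonneg (sq_nonneg (om z)) k0
      linarith
  have r3 : In U (fun _ => 1) (fun z => (ε * (hi z * nK σ τ χ z + nD σ τ χ z) +
      4 * (d z * nDK σ τ χ z)) * (a z - b z) ^ 2) ≤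
      In U (fun _ => 1) (fun z => Z z * f₀ z * (a z - b z) ^ 2) := by
    refine In_mono hU op o1 ((tf.sq hU).mul_left hU s3) ((tf.sq hU).mul_left hU (hZ.mul hf₀))
      fun z hz => mul_le_mul_of_nonneg_right ?_ (sq_nonneg _)
    by_cases hc : z ∈ Ω
    · exact p3 z hc
    · rw [nD_z σ τ (off z hz hc), nK_z σ τ (off z hz hc), nDK_z σ τ (off z hz hc)]
      have := mul_nonneg (HO z hz).Z0 (HO z hz).f0
      linarith
  have q1 := Vale.Agent.P088.R2.H516.O.payK ok ot el₁ el₂ hv₁ hv₂ hW hψ hw hg he hf₀ hZ hZ' HO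
    ha hb
  have q2 := Vale.Agent.P088.R2.H516.O.payY ok ot el₁ el₂ hv₁ hv₂ hW hom hw hg he hf₀ hZ hZ' HO
    ha hb
  have q3 := Vale.Agent.P088.R2.H516.O.unl ok ot el₁ el₂ hW hg he hf₀ hZ HO ha hb
  have q4 := Vale.Agent.P088.R2.H516.O.unl0 ok HO a b
  obtain ⟨q5, q6, q7, q8⟩ := q4
  change In U (fun _ => 1) (fun z => ψ z ^ 2 * K2 σ τ W (fun z => a z - b z) z) ≤ _ at q1
  change In U (fun _ => 1) (fun z => om z ^ 2 * Y2 σ τ W (fun z => a z - b z) z) ≤ _ at q2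
  have hD : F5t σ τ U (fun _ => 1) W d (fun z => χ z * a z - χ z * b z) =
      In U (fun _ => 1) (fun z => d z * DK2 σ τ W (fun z => χ z * a z - χ z * b z) z) := rfl
  have hM : Mxf σ τ U (fun _ => 1) W hi (fun z => χ z * a z) (fun z => χ z * b z) =
      In U (fun _ => 1) (fun z => hi z * K2 σ τ W (fun z => χ z * a z - χ z * b z) z) +
        In U (fun _ => 1) (Y2 σ τ W (fun z => χ z * a z - χ z * b z)) +
        In U (fun _ => 1) (fun z => hi z * Y2 σ τ W (fun z => χ z * a z + χ z * b z) z) := rfl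
  rw [hD, hM]
  generalize In U (fun _ => 1) (fun z => d z * DK2 σ τ W (fun z => χ z * a z - χ z * b z) z) =
    L at *
  generalize In U (fun _ => 1)
    (fun z => χ z ^ 2 * Sp σ τ v₁ v₂ W (fun z => a z - b z) z ^ 2) = T1 at *
  generalize In U (fun _ => 1) (fun z => χ z ^ 2 * sqd σ τ v₁ v₂ W a b z) = T1' at *
  generalize In U (fun _ => 1) (fun z => hi z *
    K2 σ τ W (fun z => χ z * a z - χ z * b z) z) = T2 at *
  generalize In U (fun _ => 1) (Y2 σ τ W (fun z => χ z * a z - χ z * b z)) = T3 at *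
  generalize In U (fun _ => 1) (fun z => χ z ^ 2 * (wc z * (a z - b z) ^ 2)) = T4 at *
  generalize In U (fun _ => 1) (fun z => χ z ^ 2 * (e z * (a z + b z) ^ 2)) = T5 at *
  generalize In U (fun _ => 1) (fun z => hi z *
    Y2 σ τ W (fun z => χ z * a z + χ z * b z) z) = T6 at *
  generalize In U (fun _ => 1) (fun z => d z * nD σ τ χ z *
      K2 σ τ W (fun z => a z - b z) z) = C1 at *
  generalize In U (fun _ => 1) (fun z => d z * nK σ τ χ z *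
      Y2 σ τ W (fun z => a z - b z) z) = C2 at *
  generalize In U (fun _ => 1) (fun z => (ε * (hi z * nK σ τ χ z + nD σ τ χ z) +
      4 * (d z * nDK σ τ χ z)) * (a z - b z) ^ 2) = C3 at *
  generalize In U (fun _ => 1) (fun z => ψ z ^ 2 * K2 σ τ W (fun z => a z - b z) z) = D1 at *
  generalize In U (fun _ => 1) (fun z => om z ^ 2 * Y2 σ τ W (fun z => a z - b z) z) = D2 at *
  generalize In U (fun _ => 1) (fun z => Z z * f₀ z * (a z - b z) ^ 2) = D3 at *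
  generalize In U (fun _ => 1) (fun z => Z z * Vale.Agent.P088.R2.H516.O.un σ τ W g e f₀ a b z)
    = UN at *
  generalize In U (fun _ => 1) (fun z => Z' z * sqd σ τ v₁ v₂ W a b z) = SQ at *
  have z1 : L ≤ ε * (T1' + T2 + T3 + T4) + 85 * (UN + SQ) := by
    have := mul_le_mul_of_nonneg_left m1 hε
    linarith
  have z2 := mul_le_mul_of_nonneg_left z1 hC
  have z3 : 0 ≤ T1' + T2 + T3 + T4 := by linarith
  have z4 := mul_le_mul_of_nonneg_right hCε z3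
  have c1 : 0 ≤ c₀ / 2 := le_trans (mul_nonneg hC hε) hCε
  have z5 := mul_nonneg c1 n5
  have z6 := mul_nonneg c1 n6
  linarith

end Vale.Agent.P088.R2.H856.O
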