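import Mathlib

/-!
# Elementary estimates for the instance of `HF`
-/

open Set Filter
open scoped Topology

noncomputable section

namespace Vale.Agent.P088.R2.H856.O

variable {E : Type*} [NormedAddCommGroup E] [NormedSpace ℝ E]

/-- The derivative of `Φ(u) + e^u S(ρ)`. -/
theorem fd_W {Φ S : ℝ → ℝ} {u ρ W : E → ℝ} {z v : E} {N S₁ : ℝ} (hu : DifferentiableAt ℝ u z)
    (hρ : DifferentiableAt ℝ ρ z) (hΦ : HasDerivAt Φ N (u z)) (hS : HasDerivAt S S₁ (ρ z))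
    (hW : W =ᶠ[𝓝 z] fun y => Φ (u y) + Real.exp (u y) * S (ρ y)) :
    fderiv ℝ W z v = (N + Real.exp (u z) * S (ρ z)) * fderiv ℝ u z v +
      Real.exp (u z) * S₁ * fderiv ℝ ρ z v := by
  rw [hW.fderiv_eq]
  have h1 := hΦ.comp_hasFDerivAt z hu.hasFDerivAt
  have h2 := (Real.hasDerivAt_exp (u z)).comp_hasFDerivAt z hu.hasFDerivAt
  have h3 := hS.comp_hasFDerivAt z hρ.hasFDerivAt
  have h4 := (h1.add (h2.mul h3)).fderiv
  have h5 : (fun y => Φ (u y) + Real.exp (u y) * S (ρ y)) =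
      Φ ∘ u + (Real.exp ∘ u) * (S ∘ ρ) := rfl
  rw [h5, h4]
  simp only [_root_.add_apply, _root_.smul_apply, smul_eq_mul, Function.comp_apply]
  ring

theorem sq_W {N e s t x y A B S S₁ : ℝ} (hs : s = t ^ 2) (t0 : 0 ≤ t) (t1 : t ≤ 1)
    (hx : |x| ≤ A) (hy : |y| ≤ B * t) (hS : |S| ≤ 8 * s) (hS₁ : |S₁| ≤ 17) :
    ((N + e * S) * x + e * S₁ * y) ^ 2 ≤ 900 * (A ^ 2 + B ^ 2) * (N ^ 2 + e * (e * s)) := by
  have hA : 0 ≤ A := (abs_nonneg _).trans hx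
  have x2 : x ^ 2 ≤ A ^ 2 := sq_le_sq' (by linarith [(abs_le.1 hx).1]) (abs_le.1 hx).2
  have y2 : y ^ 2 ≤ (B * t) ^ 2 := by
    rw [← sq_abs y]; exact pow_le_pow_left₀ (abs_nonneg _) hy 2
  have S2 : S ^ 2 ≤ (8 * s) ^ 2 := by
    rw [← sq_abs S]; exact pow_le_pow_left₀ (abs_nonneg _) hS 2
  have T2 : S₁ ^ 2 ≤ 17 ^ 2 := by
    rw [← sq_abs S₁]; exact pow_le_pow_left₀ (abs_nonneg _) hS₁ 2
  have s1 : s ^ 2 ≤ s := by
    rw [hs]; nlinarith [mul_nonneg t0 t0, mul_nonneg (mul_nonneg t0 t0) (sub_nonneg.2 t1)]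
  have s0 : 0 ≤ s := by rw [hs]; positivity
  have k1 : (N * x) ^ 2 ≤ N ^ 2 * A ^ 2 := by
    rw [mul_pow]; exact mul_le_mul_of_nonneg_left x2 (sq_nonneg _)
  have k2 : (e * S * x) ^ 2 ≤ 64 * (e ^ 2 * s) * A ^ 2 := by
    have a1 : (e * S * x) ^ 2 = e ^ 2 * S ^ 2 * x ^ 2 := by ring
    rw [a1]
    have a2 : e ^ 2 * S ^ 2 ≤ 64 * (e ^ 2 * s) := by
      have := mul_le_mul_of_nonneg_left (S2.trans (by nlinarith : (8 * s) ^ 2 ≤ 64 * s))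
        (sq_nonneg e)
      linarith
    exact mul_le_mul a2 x2 (sq_nonneg _) (by positivity)
  have k3 : (e * S₁ * y) ^ 2 ≤ 289 * (e ^ 2 * s) * B ^ 2 := by
    have a1 : (e * S₁ * y) ^ 2 = (e ^ 2 * y ^ 2) * S₁ ^ 2 := by ring
    have a2 : e ^ 2 * y ^ 2 ≤ e ^ 2 * (B * t) ^ 2 := mul_le_mul_of_nonneg_left y2 (sq_nonneg _)
    have a3 := mul_le_mul a2 T2 (sq_nonneg _) (by positivity)
    rw [a1]
    refine a3.trans (le_of_eq ?_)
    rw [hs]; ring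
  have k4 : ((N + e * S) * x + e * S₁ * y) ^ 2 ≤
      3 * ((N * x) ^ 2 + (e * S * x) ^ 2 + (e * S₁ * y) ^ 2) := by
    nlinarith [sq_nonneg (N * x - e * S * x), sq_nonneg (N * x - e * S₁ * y),
      sq_nonneg (e * S * x - e * S₁ * y)]
  have z1 : 0 ≤ N ^ 2 * A ^ 2 := by positivity
  have z2 : 0 ≤ N ^ 2 * B ^ 2 := by positivity
  have z3 : 0 ≤ e ^ 2 * s * A ^ 2 := by positivity
  have z4 : 0 ≤ e ^ 2 * s * B ^ 2 := by positivity
  have e1 : 900 * (A ^ 2 + B ^ 2) * (N ^ 2 + e * (e * s)) =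
      900 * (N ^ 2 * A ^ 2 + N ^ 2 * B ^ 2 + e ^ 2 * s * A ^ 2 + e ^ 2 * s * B ^ 2) := by ring
  rw [e1]
  nlinarith

/-- The derivative of `m = e^u ρ`. -/
theorem fd_m {u ρ : E → ℝ} {z v : E} (hu : DifferentiableAt ℝ u z)
    (hρ : DifferentiableAt ℝ ρ z) :
    fderiv ℝ (fun y => Real.exp (u y) * ρ y) z v =
      Real.exp (u z) * (ρ z * fderiv ℝ u z v + fderiv ℝ ρ z v) := by
  have h2 := (Real.hasDerivAt_exp (u z)).comp_hasFDerivAt z hu.hasFDerivAt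
  have h4 := (h2.mul hρ.hasFDerivAt).fderiv
  have h5 : (fun y => Real.exp (u y) * ρ y) = (Real.exp ∘ u) * ρ := rfl
  rw [h5, h4]
  simp only [_root_.add_apply, _root_.smul_apply, smul_eq_mul, Function.comp_apply]
  ring

theorem sq_m {e s t x y A B : ℝ} (hs : s = t ^ 2) (t0 : 0 ≤ t) (t1 : t ≤ 1)
    (hx : |x| ≤ A) (hy : |y| ≤ B * t) :
    (e * (s * x + y)) ^ 2 ≤ 2 * (A ^ 2 + B ^ 2) * (e * (e * s)) := by
  have hA : 0 ≤ A := (abs_nonneg _).trans hx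
  have x2 : x ^ 2 ≤ A ^ 2 := sq_le_sq' (by linarith [(abs_le.1 hx).1]) (abs_le.1 hx).2
  have y2 : y ^ 2 ≤ (B * t) ^ 2 := by
    rw [← sq_abs y]; exact pow_le_pow_left₀ (abs_nonneg _) hy 2
  have s0 : 0 ≤ s := by rw [hs]; positivity
  have s1 : s ^ 2 ≤ s := by
    rw [hs]; nlinarith [mul_nonneg t0 t0, mul_nonneg (mul_nonneg t0 t0) (sub_nonneg.2 t1)]
  have k1 : (s * x) ^ 2 ≤ s * A ^ 2 := by
    rw [mul_pow]; exact mul_le_mul s1 x2 (sq_nonneg _) s0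
  have k2 : y ^ 2 ≤ s * B ^ 2 := by rw [hs]; linarith [y2, mul_pow B t 2]
  have k3 : (s * x + y) ^ 2 ≤ 2 * (A ^ 2 + B ^ 2) * s := by
    nlinarith [sq_nonneg (s * x - y)]
  have k4 := mul_le_mul_of_nonneg_left k3 (sq_nonneg e)
  calc (e * (s * x + y)) ^ 2 = e ^ 2 * (s * x + y) ^ 2 := by ring
    _ ≤ e ^ 2 * (2 * (A ^ 2 + B ^ 2) * s) := k4
    _ = _ := by ring

/-- The derivative of `η² / (1 + m)²`. -/
theorem fd_d {m : E → ℝ} {z v : E} (hm : DifferentiableAt ℝ m z) (h0 : 0 < 1 + m z) (η : ℝ) :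
    fderiv ℝ (fun y => η ^ 2 / (1 + m y) ^ 2) z v =
      -(2 * η ^ 2) / (1 + m z) ^ 3 * fderiv ℝ m z v := by
  have h1 : HasDerivAt (fun t : ℝ => η ^ 2 / (1 + t) ^ 2) (-(2 * η ^ 2) / (1 + m z) ^ 3) (m z) := by
    have a1 : HasDerivAt (fun t : ℝ => (1 + t) ^ 2) (2 * (1 + m z)) (m z) := by
      have := ((hasDerivAt_id' (m z)).const_add 1).fun_pow 2
      simpa using this
    have a2 := (hasDerivAt_const (m z) (η ^ 2)).div a1 (by positivity)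
    refine a2.congr_deriv ?_
    field_simp
    ring
  have h2 := (h1.comp_hasFDerivAt z hm.hasFDerivAt).fderiv
  have h3 : (fun y => η ^ 2 / (1 + m y) ^ 2) = (fun t : ℝ => η ^ 2 / (1 + t) ^ 2) ∘ m := rfl
  rw [h3, h2]
  simp only [_root_.smul_apply, smul_eq_mul]

end Vale.Agent.P088.R2.H856.O
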